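import Vale.Agent.P345.Binom

/-!
Single-fold Diophantine predicates are closed under bounded universal quantification.
-/

namespace Vale.Agent.P345

variable {α β γ : Type}

open Finset

lemma IsP.modEq {f : (γ → ℕ) → ℕ} (hf : IsP f) {p : ℕ} {x y : γ → ℕ}
    (h : ∀ i, x i ≡ y i [MOD p]) : f x ≡ f y [MOD p] := by
  obtain ⟨P, hP⟩ := hf
  rw [hP, hP]
  clear hP
  induction P using MvPolynomial.induction_on with
  | C c => simp [Nat.ModEq.refl]
  | add p q hp hq => simpa using hp.add hq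
  | mul_X p i hp => simpa using hp.mul (h i)

lemma IsP.mono {f : (γ → ℕ) → ℕ} (hf : IsP f) {x y : γ → ℕ}
    (h : ∀ i, x i ≤ y i) : f x ≤ f y := by
  obtain ⟨P, hP⟩ := hf
  rw [hP, hP]
  clear hP
  induction P using MvPolynomial.induction_on with
  | C c => simp
  | add p q hp hq => simpa using add_le_add hp hq
  | mul_X p i hp => simpa using Nat.mul_le_mul hp (h i)

/-- The pairwise coprime moduli. -/
def mm (n N i : ℕ) : ℕ := n.factorial * N.factorial / (i + 1) - 1

lemma mm_spec {n N i : ℕ} (hi : i < n) :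
    (i + 1) * (mm n N i + 1) = n.factorial * N.factorial ∧ N.factorial ∣ mm n N i + 1 := by
  obtain ⟨k, hk⟩ : i + 1 ∣ n.factorial := Nat.dvd_factorial (by omega) hi
  have hk0 : 0 < k := by
    have := n.factorial_pos
    rw [hk] at this
    exact Nat.pos_of_mul_pos_left this
  have e : mm n N i + 1 = k * N.factorial := by
    unfold mm
    rw [hk, mul_assoc, Nat.mul_div_cancel_left _ (by omega)]
    have := Nat.mul_pos hk0 N.factorial_pos
    omega
  rw [e, hk]
  exact ⟨by ring, Dvd.intro_left _ rfl⟩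

lemma mm_prime {n N i p : ℕ} (hi : i < n) (hp : p.Prime) (h : p ∣ mm n N i) : N < p := by
  by_contra hc
  have h1 : p ∣ mm n N i + 1 :=
    ((hp.dvd_factorial).2 (by omega)).trans (mm_spec hi).2
  exact hp.not_dvd_one ((Nat.dvd_add_right h).1 h1)

lemma mm_gt {n N i : ℕ} (hi : i < n) (hN : 3 ≤ N) : 1 < mm n N i := by
  have h1 := Nat.le_of_dvd (by omega) (mm_spec (N := N) hi).2
  have h2 := Nat.self_le_factorial N
  omega

lemma mm_modEq {n N i : ℕ} (hi : i < n) :
    n.factorial * N.factorial - 1 ≡ i [MOD mm n N i] := by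
  rw [← (mm_spec hi).1]
  have : (i + 1) * (mm n N i + 1) - 1 = i + mm n N i * (i + 1) := by
    rw [mul_add, mul_comm (i + 1) (mm n N i)]; omega
  rw [this]
  simp [Nat.ModEq]

lemma mm_coprime {n N : ℕ} (hn : n ≤ N) :
    Set.Pairwise (range n : Set ℕ) (Function.onFun Nat.Coprime (mm n N)) := by
  intro i hi j hj hij
  simp only [coe_range, Set.mem_Iio] at hi hj
  refine Nat.coprime_of_dvd fun p hp h1 h2 => hij ?_
  have h3 := mm_prime hi hp h1
  exact Nat.ModEq.eq_of_lt_of_lt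
    (((mm_modEq hi).of_dvd h1).symm.trans ((mm_modEq hj).of_dvd h2)) (by omega) (by omega)

lemma mm_prod (n N : ℕ) :
    (n.factorial * N.factorial - 1).choose n = ∏ i ∈ range n, mm n N i := by
  apply Nat.eq_of_mul_eq_mul_left n.factorial_pos
  rw [← Nat.descFactorial_eq_factorial_mul_choose, Nat.descFactorial_eq_prod_range]
  conv_rhs => rw [← prod_range_add_one_eq_factorial, ← prod_mul_distrib]
  refine prod_congr rfl fun i hi => ?_
  rw [← (mm_spec (mem_range.1 hi)).1, mul_add]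
  omega

lemma modEq_prod {n : ℕ} {m : ℕ → ℕ}
    (h : Set.Pairwise (range n : Set ℕ) (Function.onFun Nat.Coprime m)) {x y : ℕ}
    (hxy : ∀ i < n, x ≡ y [MOD m i]) : x ≡ y [MOD ∏ i ∈ range n, m i] := by
  rw [Nat.modEq_iff_dvd]
  push_cast
  refine prod_dvd_of_coprime (fun i hi j hj hij => ?_) fun i hi =>
    (hxy i (mem_range.1 hi)).dvd
  exact Nat.isCoprime_iff_coprime.2 (h hi hj hij)

lemma cast_desc (z u : ℕ) : ((z.descFactorial u : ℕ) : ℤ) = ∏ l ∈ range u, ((z : ℤ) - l) := by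
  induction u with
  | zero => simp
  | succ u ih =>
    rw [prod_range_succ, ← ih, Nat.descFactorial_succ]
    rcases le_or_gt u z with h | h
    · push_cast [Nat.cast_sub h]; ring
    · simp [Nat.descFactorial_eq_zero_iff_lt.2 h]

lemma modEq_of_primes {m z u w : ℕ} (hw : w < u) (hm : ∀ p, p.Prime → p ∣ m → u ≤ p)
    (h : m ∣ z.descFactorial u) (h2 : ∀ p, p.Prime → p ∣ m → z ≡ w [MOD p]) :
    z ≡ w [MOD m] := by
  have h3 : (m : ℤ) ∣ ∏ l ∈ range u, ((z : ℤ) - l) := by
    rw [← cast_desc]; exact_mod_cast h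
  rw [← mul_prod_erase _ _ (mem_range.2 hw)] at h3
  refine (Nat.modEq_iff_dvd.2 (IsCoprime.dvd_of_dvd_mul_right ?_ h3)).symm
  refine IsCoprime.prod_right fun l hl => ?_
  rw [Int.isCoprime_iff_nat_coprime, Int.natAbs_natCast]
  refine Nat.coprime_of_dvd fun p hp h4 h5 => ?_
  rw [mem_erase, mem_range] at hl
  have h6 : l ≡ z [MOD p] := Nat.modEq_iff_dvd.2 (Int.natCast_dvd.2 h5)
  have h7 := hm p hp h4
  exact hl.1 (Nat.ModEq.eq_of_lt_of_lt (h6.trans (h2 p hp h4)) (by omega) (by omega))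

section
variable [Fintype β] (F G : ℕ → (β → ℕ) → ℕ)

/-- The size bound. -/
def bN (n u : ℕ) : ℕ := n + u + F n (fun _ => u) + G n (fun _ => u) + 3

/-- The encoding condition with explicit parameters. -/
def Cond0 (q M u : ℕ) (z : β → ℕ) : Prop :=
  (∀ j, z j < M) ∧ F q z % M = G q z % M ∧ (∀ j, (u.factorial * (z j).choose u) % M = 0) ∧
    (u = 0 ∨ 1 < Nat.gcd M (∏ j, (z j + (M - 1) * (u - 1))))

/-- The encoding condition. -/
def Cond (n u : ℕ) (z : β → ℕ) : Prop :=
  Cond0 F G (n.factorial * (bN F G n u).factorial - 1)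
    ((n.factorial * (bN F G n u).factorial - 1).choose n) u z

variable {F G}

lemma gcd_cond {n N u : ℕ} (hN : 3 ≤ N) (hu : u ≤ N) {z : β → ℕ} {w : ℕ → β → ℕ}
    (hw : ∀ i < n, ∀ j, w i j < u ∧ z j ≡ w i j [MOD mm n N i]) :
    1 < Nat.gcd (∏ i ∈ range n, mm n N i)
      (∏ j, (z j + ((∏ i ∈ range n, mm n N i) - 1) * (u - 1))) ↔
      ∃ i < n, ∃ j, w i j = u - 1 := by
  have hM : 0 < ∏ i ∈ range n, mm n N i :=
    prod_pos fun i hi => by have := mm_gt (mem_range.1 hi) hN; omega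
  have key : ∀ p j, p ∣ ∏ i ∈ range n, mm n N i →
      (p ∣ z j + ((∏ i ∈ range n, mm n N i) - 1) * (u - 1) ↔ z j ≡ u - 1 [MOD p]) := by
    intro p j hp
    generalize ∏ i ∈ range n, mm n N i = M at hp hM
    rw [← Int.natCast_dvd_natCast] at hp ⊢
    rw [Nat.modEq_iff_dvd]
    push_cast [Nat.cast_sub (show 1 ≤ M from hM)]
    rw [show (z j : ℤ) + (M - 1) * ((u - 1 : ℕ) : ℤ) = M * ((u - 1 : ℕ) : ℤ) -
      (((u - 1 : ℕ) : ℤ) - z j) by ring]
    exact dvd_sub_right (hp.mul_right _)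
  constructor
  · intro h
    obtain ⟨p, hp, hd⟩ := Nat.exists_prime_and_dvd h.ne'
    rw [Nat.dvd_gcd_iff] at hd
    obtain ⟨i, hi, h1⟩ := (hp.prime.dvd_finsetProd_iff _).1 hd.1
    obtain ⟨j, -, h2⟩ := (hp.prime.dvd_finsetProd_iff _).1 hd.2
    rw [mem_range] at hi
    have h3 := mm_prime hi hp h1
    have h4 := (hw i hi j).1
    exact ⟨i, hi, j, Nat.ModEq.eq_of_lt_of_lt
      (((hw i hi j).2.of_dvd h1).symm.trans ((key p j hd.1).1 h2)) (by omega) (by omega)⟩
  · rintro ⟨i, hi, j, e⟩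
    have h1 : mm n N i ∣ ∏ i ∈ range n, mm n N i := dvd_prod_of_mem _ (mem_range.2 hi)
    have h2 := (key _ j h1).2 (e ▸ (hw i hi j).2)
    exact lt_of_lt_of_le (mm_gt hi hN) (Nat.le_of_dvd (Nat.gcd_pos_of_pos_left _ hM)
      (Nat.dvd_gcd h1 (h2.trans (dvd_prod_of_mem _ (mem_univ j)))))

variable
  (cF : ∀ p i i' w w', i ≡ i' [MOD p] → (∀ j, w j ≡ w' j [MOD p]) → F i w ≡ F i' w' [MOD p])
  (cG : ∀ p i i' w w', i ≡ i' [MOD p] → (∀ j, w j ≡ w' j [MOD p]) → G i w ≡ G i' w' [MOD p])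
  (mF : ∀ i i' w w', i ≤ i' → (∀ j, w j ≤ w' j) → F i w ≤ F i' w')
  (mG : ∀ i i' w w', i ≤ i' → (∀ j, w j ≤ w' j) → G i w ≤ G i' w')
  (U : ∀ i w w', F i w = G i w → F i w' = G i w' → w = w')

include cF cG mF mG U in
lemma cond_sound {n u : ℕ} {z : β → ℕ} (h : Cond F G n u z) : ∃ w : ℕ → β → ℕ,
    (∀ i < n, F i (w i) = G i (w i)) ∧
    (∀ i < n, ∀ j, w i j < u ∧ z j ≡ w i j [MOD mm n (bN F G n u) i]) ∧
    (u = 0 ∨ ∃ i < n, ∃ j, w i j = u - 1) := by
  obtain ⟨-, h2, h3, h4⟩ := h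
  have hN : n + u + F n (fun _ => u) + G n (fun _ => u) + 3 ≤ bN F G n u := le_rfl
  generalize bN F G n u = N at *
  rw [mm_prod] at h2 h3 h4
  have hd : ∀ i < n, ∀ j, mm n N i ∣ (z j).descFactorial u := fun i hi j => by
    rw [Nat.descFactorial_eq_factorial_mul_choose]
    exact (dvd_prod_of_mem _ (mem_range.2 hi)).trans (Nat.dvd_of_mod_eq_zero (h3 j))
  have k1 : ∀ i < n, ∀ p, p.Prime → p ∣ mm n N i → ∃ w : β → ℕ, F i w = G i w ∧
      ∀ j, w j < u ∧ z j ≡ w j [MOD p] := by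
    intro i hi p hp hpm
    have hpN := mm_prime hi hp hpm
    have : ∀ j, ∃ l, l < u ∧ z j ≡ l [MOD p] := by
      intro j
      have h5 : (p : ℤ) ∣ ∏ l ∈ range u, ((z j : ℤ) - l) := by
        rw [← cast_desc]; exact_mod_cast hpm.trans (hd i hi j)
      obtain ⟨l, hl, h6⟩ := ((Nat.prime_iff_prime_int.1 hp).dvd_finsetProd_iff _).1 h5
      exact ⟨l, mem_range.1 hl, (Nat.modEq_iff_dvd.2 h6).symm⟩
    choose w hw using this
    refine ⟨w, ?_, hw⟩
    have e1 := cF p _ _ _ _ ((mm_modEq hi).of_dvd hpm) fun j => (hw j).2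
    have e2 := cG p _ _ _ _ ((mm_modEq hi).of_dvd hpm) fun j => (hw j).2
    have e3 := Nat.ModEq.of_dvd (hpm.trans (dvd_prod_of_mem _ (mem_range.2 hi))) h2
    have b1 := mF i n w (fun _ => u) hi.le fun j => (hw j).1.le
    have b2 := mG i n w (fun _ => u) hi.le fun j => (hw j).1.le
    exact Nat.ModEq.eq_of_lt_of_lt (e1.symm.trans (e3.trans e2)) (by omega) (by omega)
  have k2 : ∀ i, ∃ w : β → ℕ, i < n → F i w = G i w ∧
      ∀ j, w j < u ∧ z j ≡ w j [MOD mm n N i] := by
    intro i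
    by_cases hi : i < n
    · obtain ⟨p, hp, hpm⟩ := Nat.exists_prime_and_dvd (mm_gt (N := N) hi (by omega)).ne'
      obtain ⟨w, hw, hw2⟩ := k1 i hi p hp hpm
      refine ⟨w, fun _ => ⟨hw, fun j => ⟨(hw2 j).1, modEq_of_primes (hw2 j).1
        (fun p hp hpm => by have := mm_prime hi hp hpm; omega) (hd i hi j) fun p hp hpm => ?_⟩⟩⟩
      obtain ⟨w', hw', hw2'⟩ := k1 i hi p hp hpm
      rw [U i w w' hw hw']
      exact (hw2' j).2
    · exact ⟨0, fun h => absurd h hi⟩
  choose w hw using k2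
  refine ⟨w, fun i hi => (hw i hi).1, fun i hi => (hw i hi).2, h4.imp_right fun h => ?_⟩
  exact (gcd_cond (by omega) (by omega) fun i hi => (hw i hi).2).1 h

include cF cG mF mG U in
lemma cond_unique {n u u' : ℕ} {z z' : β → ℕ} (h : Cond F G n u z) (h' : Cond F G n u' z') :
    u = u' ∧ z = z' := by
  obtain ⟨w, a1, a2, a3⟩ := cond_sound cF cG mF mG U h
  obtain ⟨w', b1, b2, b3⟩ := cond_sound cF cG mF mG U h'
  have e : ∀ i < n, w i = w' i := fun i hi => U i _ _ (a1 i hi) (b1 i hi)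
  have hu : u = u' := by
    apply le_antisymm
    · rcases a3 with h0 | ⟨i, hi, j, h0⟩
      · omega
      · have := (b2 i hi j).1
        rw [← e i hi] at this
        omega
    · rcases b3 with h0 | ⟨i, hi, j, h0⟩
      · omega
      · have := (a2 i hi j).1
        rw [e i hi] at this
        omega
  subst hu
  refine ⟨rfl, funext fun j => Nat.ModEq.eq_of_lt_of_lt ?_ (h.1 j) (h'.1 j)⟩
  rw [mm_prod]
  refine modEq_prod (mm_coprime (by unfold bN; omega)) fun i hi => (a2 i hi j).2.trans ?_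
  rw [e i hi]
  exact (b2 i hi j).2.symm

include cF cG in
lemma cond_complete {n : ℕ} (h : ∀ i < n, ∃ w, F i w = G i w) : ∃ u z, Cond F G n u z := by
  have : ∀ i, ∃ w, i < n → F i w = G i w := fun i => by
    by_cases hi : i < n
    · exact (h i hi).imp fun w hw _ => hw
    · exact ⟨0, fun h => absurd h hi⟩
  choose w hw using this
  obtain ⟨u, hu1, hu2⟩ : ∃ u, (∀ i < n, ∀ j, w i j < u) ∧
      (u = 0 ∨ ∃ i < n, ∃ j, w i j = u - 1) := by
    refine ⟨(range n ×ˢ (univ : Finset β)).sup (fun x => w x.1 x.2 + 1), fun i hi j => ?_, ?_⟩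
    · exact le_sup (f := fun x : ℕ × β => w x.1 x.2 + 1)
        (show (i, j) ∈ range n ×ˢ (univ : Finset β) by simp [hi])
    · rcases (range n ×ˢ (univ : Finset β)).eq_empty_or_nonempty with h | h
      · left; rw [h]; rfl
      · obtain ⟨x, hx, e⟩ := exists_mem_eq_sup _ h (fun x => w x.1 x.2 + 1)
        right
        exact ⟨x.1, by simpa using hx, x.2, by omega⟩
  have hN : n + u + F n (fun _ => u) + G n (fun _ => u) + 3 ≤ bN F G n u := le_rfl
  unfold Cond
  refine ⟨u, ?_⟩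
  rw [mm_prod]
  generalize bN F G n u = N at *
  have hc := mm_coprime (n := n) (N := N) (by omega)
  have h0 : ∀ i ∈ range n, mm n N i ≠ 0 := fun i hi => by
    have := mm_gt (N := N) (mem_range.1 hi) (by omega); omega
  let z : β → ℕ := fun j => Nat.chineseRemainderOfFinset (fun i => w i j) (mm n N) (range n) h0 hc
  have hz : ∀ i < n, ∀ j, z j ≡ w i j [MOD mm n N i] := fun i hi j =>
    (Nat.chineseRemainderOfFinset (fun i => w i j) (mm n N) (range n) h0 hc).2 i (mem_range.2 hi)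
  refine ⟨z, fun j => Nat.chineseRemainderOfFinset_lt_prod _ _ h0 hc, ?_, fun j => ?_,
    hu2.imp_right fun h => ?_⟩
  · refine modEq_prod hc fun i hi => ?_
    refine (cF _ _ _ _ _ (mm_modEq hi) (hz i hi)).trans ?_
    rw [hw i hi]
    exact (cG _ _ _ _ _ (mm_modEq hi) (hz i hi)).symm
  · have : u.factorial * (z j).choose u ≡ 0 [MOD ∏ i ∈ range n, mm n N i] := by
      refine modEq_prod hc fun i hi => Nat.modEq_zero_iff_dvd.2 ?_
      rw [← Nat.descFactorial_eq_factorial_mul_choose, ← Int.natCast_dvd_natCast, cast_desc]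
      exact (hz i hi j).symm.dvd.trans (dvd_prod_of_mem _ (mem_range.2 (hu1 i hi j)))
    simpa [Nat.ModEq] using this
  · exact (gcd_cond (by omega) (by omega) fun i hi j => ⟨hu1 i hi j, hz i hi j⟩).2 h

end

theorem SF.ball [Finite α] {p : (α → ℕ) → ℕ → Prop}
    (h : SF (fun v : Option α → ℕ => p (fun i => v (some i)) (v none)))
    {n : (α → ℕ) → ℕ} (hn : SFn n) : SF (fun a => ∀ i < n a, p a i) := by
  obtain ⟨β, _, r, ⟨f, g, hf, hg, hr⟩, H, U⟩ := h
  have := Fintype.ofFinite β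
  let F : ((Option α ⊕ β → ℕ) → ℕ) → (α → ℕ) → ℕ → (β → ℕ) → ℕ :=
    fun f a i w => f (Sum.elim (fun o => o.elim i a) w)
  have cF : ∀ f, IsP f → ∀ a p i i' w w', i ≡ i' [MOD p] → (∀ j, w j ≡ w' j [MOD p]) →
      F f a i w ≡ F f a i' w' [MOD p] := fun f hf a p i i' w w' h1 h2 =>
    hf.modEq (by
      rintro ((_ | x) | x)
      · exact h1
      · exact Nat.ModEq.refl _
      · exact h2 x)
  have mF : ∀ f, IsP f → ∀ a i i' w w', i ≤ i' → (∀ j, w j ≤ w' j) →
      F f a i w ≤ F f a i' w' := fun f hf a i i' w w' h1 h2 =>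
    hf.mono (by
      rintro ((_ | x) | x)
      · exact h1
      · exact le_rfl
      · exact h2 x)
  have U' : ∀ a i w w', F f a i w = F g a i w → F f a i w' = F g a i w' → w = w' :=
    fun a i w w' h1 h2 => U _ _ _ ((hr _).2 h1) ((hr _).2 h2)
  have sF : ∀ f, IsP f → ∀ (x : (α ⊕ Option β → ℕ) → ℕ) (y : β → (α ⊕ Option β → ℕ) → ℕ),
      SFn x → (∀ j, SFn (y j)) →
      SFn (fun v => F f (fun i => v (Sum.inl i)) (x v) (fun j => y j v)) := by
    intro f hf x y hx hy
    refine ((SFn.of_IsP hf).subst (F := fun k v => Sum.elim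
      (fun o : Option α => o.elim (x v) (fun i => v (Sum.inl i))) (fun j => y j v) k) ?_)
    rintro ((_ | i) | j)
    · exact hx
    · exact SFn.var (Sum.inl i)
    · exact hy j
  have hS := SF.exu (γ := Option β) (p := fun a c =>
    Cond (F f a) (F g a) (n a) (c none) (fun j => c (some j))) (by
      have i0 : SFn (fun v : α ⊕ Option β → ℕ => n (fun i => v (Sum.inl i))) := hn.comap _
      have i1 := sF f hf _ (fun _ v => v (Sum.inr none)) i0 (fun _ => inferInstance)
      have i2 := sF g hg _ (fun _ v => v (Sum.inr none)) i0 (fun _ => inferInstance)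
      have i3 : SFn (fun v : α ⊕ Option β → ℕ => bN (F f fun i => v (Sum.inl i))
          (F g fun i => v (Sum.inl i)) (n fun i => v (Sum.inl i)) (v (Sum.inr none))) := by
        unfold bN; infer_instance
      unfold Cond
      beta_reduce
      generalize hB : (fun v : α ⊕ Option β → ℕ => bN (F f fun i => v (Sum.inl i))
          (F g fun i => v (Sum.inl i)) (n fun i => v (Sum.inl i)) (v (Sum.inr none))) = B at i3
      simp only [fun v => congrFun hB v]
      have i4 : SFn (fun v : α ⊕ Option β → ℕ =>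
        (n fun i => v (Sum.inl i)).factorial * (B v).factorial - 1) := inferInstance
      have i5 : SFn (fun v : α ⊕ Option β → ℕ =>
        ((n fun i => v (Sum.inl i)).factorial * (B v).factorial - 1).choose
          (n fun i => v (Sum.inl i))) := inferInstance
      have i6 := sF f hf _ (fun j v => v (Sum.inr (some j))) i4 (fun _ => inferInstance)
      have i7 := sF g hg _ (fun j v => v (Sum.inr (some j))) i4 (fun _ => inferInstance)
      have i8 := SFn.prod (univ : Finset β) (F := fun j (v : α ⊕ Option β → ℕ) =>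
        v (Sum.inr (some j)) + (((n fun i => v (Sum.inl i)).factorial * (B v).factorial - 1).choose
          (n fun i => v (Sum.inl i)) - 1) * (v (Sum.inr none) - 1)) (fun _ _ => inferInstance)
      unfold Cond0
      refine SF.and (hp := SF.all fun j => inferInstance) (hq := SF.and (hp := inferInstance)
        (hq := SF.and (hp := SF.all fun j => inferInstance) (hq := ?_)))
      refine (SF.or (inferInstance : SF (fun v : α ⊕ Option β → ℕ => v (Sum.inr none) = 0))
        (SF.and (hp := (inferInstance : SF (fun v : α ⊕ Option β → ℕ => v (Sum.inr none) ≠ 0)))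
          (hq := SF.lt (hf := SFn.const 1) (hg := SFn.gcd (hf := i5) (hg := i8))))
        (fun a h1 h2 => h2.1 h1)).congr fun v => ?_
      tauto) (by
      intro a c c' h1 h2
      obtain ⟨e1, e2⟩ := cond_unique (cF f hf a) (cF g hg a) (mF f hf a) (mF g hg a) (U' a) h1 h2
      funext o
      cases o with
      | none => exact e1
      | some j => exact congrFun e2 j)
  have Hp : ∀ a i, p a i ↔ ∃ w, F f a i w = F g a i w := fun a i => by
    have := H (fun o => o.elim i a)
    simp only [hr] at this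
    exact this
  refine hS.congr fun a => ⟨fun h => ?_, fun ⟨c, hc⟩ i hi => ?_⟩
  · obtain ⟨u, z, hz⟩ := cond_complete (cF f hf a) (cF g hg a)
      (fun i hi => (Hp a i).1 (h i hi))
    exact ⟨fun o => o.elim u z, hz⟩
  · obtain ⟨w, hw, -⟩ := cond_sound (cF f hf a) (cF g hg a) (mF f hf a) (mF g hg a) (U' a) hc
    exact (Hp a i).2 ⟨_, hw i hi⟩

end Vale.Agent.P345
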