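import Vale.Agent.P345.Pow

/-!
Binomial coefficients and factorials are single-fold Diophantine.
-/

namespace Vale.Agent.P345

variable {α : Type}

open Finset

lemma digit_sum {X : ℕ} (k : ℕ) : ∀ (N : ℕ) (c : ℕ → ℕ), (∀ j, j < N → c j < X) → k < N →
    (∑ j ∈ range N, c j * X ^ j) / X ^ k % X = c k := by
  induction k with
  | zero =>
    intro N c hc hk
    obtain ⟨N, rfl⟩ : ∃ M, N = M + 1 := ⟨N - 1, by omega⟩
    have : ∑ j ∈ range N, c (j + 1) * X ^ (j + 1) = X * ∑ j ∈ range N, c (j + 1) * X ^ j := by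
      rw [mul_sum]; exact sum_congr rfl fun j _ => by ring
    rw [sum_range_succ', this]
    simp [Nat.mod_eq_of_lt (hc 0 hk)]
  | succ k ih =>
    intro N c hc hk
    obtain ⟨N, rfl⟩ : ∃ M, N = M + 1 := ⟨N - 1, by omega⟩
    have : ∑ j ∈ range N, c (j + 1) * X ^ (j + 1) = X * ∑ j ∈ range N, c (j + 1) * X ^ j := by
      rw [mul_sum]; exact sum_congr rfl fun j _ => by ring
    have h0 := hc 0 (by omega)
    rw [sum_range_succ', this, pow_succ', ← Nat.div_div_eq_div_mul, pow_zero, mul_one,
      Nat.mul_add_div (by omega), Nat.div_eq_of_lt h0, add_zero]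
    exact ih N (fun j => c (j + 1)) (fun j hj => hc _ (by omega)) (by omega)

lemma choose_eq_digit (m k : ℕ) :
    m.choose k = (2 ^ m + 1 + 1) ^ m / (2 ^ m + 1) ^ k % (2 ^ m + 1) := by
  have h := digit_sum (X := 2 ^ m + 1) k (m + 1 + k) (fun j => m.choose j)
    (fun j _ => Nat.lt_succ_of_le (Nat.choose_le_two_pow _ _)) (by omega)
  rw [← h, add_pow (2 ^ m + 1) 1 m, sum_range_add _ (m + 1) k]
  have : ∑ x ∈ range k, m.choose (m + 1 + x) * (2 ^ m + 1) ^ (m + 1 + x) = 0 :=
    sum_eq_zero fun x _ => by rw [Nat.choose_eq_zero_of_lt (by omega), zero_mul]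
  rw [this, add_zero]
  simp only [one_pow, one_mul, Nat.cast_id, mul_comm]

instance SFn.choose {f g : (α → ℕ) → ℕ} [hf : SFn f] [hg : SFn g] :
    SFn (fun a => (f a).choose (g a)) := by
  have i1 : SFn (fun a => 2 ^ f a + 1) := inferInstance
  exact (inferInstance : SFn (fun a => (2 ^ f a + 1 + 1) ^ f a / (2 ^ f a + 1) ^ g a %
    (2 ^ f a + 1))).congr fun a => choose_eq_digit _ _

lemma factorial_eq_div (n r : ℕ) (hr : n * n * (n.factorial + 1) < r) :
    n.factorial = r ^ n / r.choose n := by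
  have h1 := Nat.descFactorial_eq_factorial_mul_choose r n
  have h2 := Nat.descFactorial_le_pow r n
  have h3 : (r - n) ^ n ≤ r.descFactorial n :=
    (Nat.pow_le_pow_left (by omega) n).trans (Nat.pow_sub_le_descFactorial r n)
  have hf := n.factorial_pos
  have hn : n ≤ r := by nlinarith [Nat.le_mul_self n]
  have hr0 : 0 < r := by omega
  have h4 : n.factorial * r ^ n < (n.factorial + 1) * (r - n) ^ n := by
    have rp : (0 : ℝ) < r := by exact_mod_cast hr0
    have hn' : (n : ℝ) ≤ r := by exact_mod_cast hn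
    have hb := one_add_mul_le_pow (a := -((n : ℝ) / r))
      (by have : (n : ℝ) / r ≤ 1 := (div_le_one rp).2 hn'
          linarith) n
    have e : ((r : ℝ) - n) ^ n = r ^ n * (1 + -((n : ℝ) / r)) ^ n := by
      rw [← mul_pow]; congr 1; field_simp; ring
    have hr' : (n : ℝ) * n * (n.factorial + 1) < r := by exact_mod_cast hr
    have h5 : (n.factorial : ℝ) < (n.factorial + 1) * (1 + n * -((n : ℝ) / r)) := by
      have : ((n.factorial : ℝ) + 1) * (n * (n / r)) < 1 := by
        rw [← mul_div_assoc, ← mul_div_assoc, div_lt_one rp]; linarith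
      linarith
    have : (n.factorial : ℝ) * r ^ n < (n.factorial + 1) * ((r : ℝ) - n) ^ n := by
      rw [e]
      have p : (0 : ℝ) < r ^ n := by positivity
      calc (n.factorial : ℝ) * r ^ n < (n.factorial + 1) * (1 + n * -((n : ℝ) / r)) * r ^ n := by
            gcongr
        _ ≤ (n.factorial + 1) * (1 + -((n : ℝ) / r)) ^ n * r ^ n := by gcongr
        _ = _ := by ring
    rw [← Nat.cast_sub hn] at this
    exact_mod_cast this
  have hc : 0 < r.choose n := Nat.choose_pos hn
  symm
  rw [Nat.div_eq_iff hc]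
  refine ⟨by omega, ?_⟩
  have h6 : n.factorial * r ^ n < n.factorial * ((n.factorial + 1) * r.choose n) := by
    calc _ < _ := h4
      _ ≤ (n.factorial + 1) * (n.factorial * r.choose n) := by rw [← h1]; gcongr
      _ = _ := by ring
  have h7 := Nat.lt_of_mul_lt_mul_left h6
  rw [add_mul] at h7
  omega

instance SFn.factorial {f : (α → ℕ) → ℕ} [hf : SFn f] : SFn (fun a => (f a).factorial) := by
  have i1 : SFn (fun a => f a * f a * (f a ^ f a + 1) + 1) := inferInstance
  refine (inferInstance : SFn (fun a => (f a * f a * (f a ^ f a + 1) + 1) ^ f a /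
    (f a * f a * (f a ^ f a + 1) + 1).choose (f a))).congr fun a => factorial_eq_div _ _ ?_
  have := Nat.factorial_le_pow (f a)
  exact Nat.lt_succ_of_le (by gcongr)

end Vale.Agent.P345
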