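import Vale.Agent.P345.Orbit

/-!
The elliptic curve `y^2 = x^3 - 2x` over the rationals: heights and descent.
-/

namespace Vale.Agent.P345

open WeierstrassCurve WeierstrassCurve.Affine Height

/-- The curve `y^2 = x^3 - 2x`. -/
def E : WeierstrassCurve ℚ := ⟨0, 0, 0, -2, 0⟩

lemma E_Δ : E.Δ = 512 := by
  simp [E, WeierstrassCurve.Δ, WeierstrassCurve.b₂, WeierstrassCurve.b₄, WeierstrassCurve.b₆,
    WeierstrassCurve.b₈]
  norm_num

instance : E.IsElliptic := ⟨by rw [E_Δ]; exact isUnit_iff_ne_zero.2 (by norm_num)⟩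

/-- Rational points. -/
abbrev Pt := E.toAffine.Point

lemma ns_iff {x y : ℚ} : E.toAffine.Nonsingular x y ↔ y ^ 2 = x ^ 3 - 2 * x := by
  rw [← equation_iff_nonsingular, equation_iff]
  simp only [E]
  constructor <;> intro h <;> linarith

lemma negY_eq (x y : ℚ) : E.toAffine.negY x y = -y := by simp [negY, E]

lemma neg_eq {x y : ℚ} (h : E.toAffine.Nonsingular x y) :
    -(Point.some x y h) = Point.some x (-y) (ns_iff.2 (by rw [← ns_iff.1 h]; ring)) := by
  rw [Point.neg_some]; congr 1; exact negY_eq x y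

lemma add_ne {x₁ y₁ x₂ y₂ : ℚ} (h₁ : E.toAffine.Nonsingular x₁ y₁)
    (h₂ : E.toAffine.Nonsingular x₂ y₂) (hx : x₁ ≠ x₂) :
    ∃ y₃ h₃, Point.some x₁ y₁ h₁ + Point.some x₂ y₂ h₂ =
      Point.some (((y₁ - y₂) / (x₁ - x₂)) ^ 2 - x₁ - x₂) y₃ h₃ := by
  rw [Point.add_of_X_ne hx]
  have e : E.toAffine.addX x₁ x₂ (E.toAffine.slope x₁ x₂ y₁ y₂) =
      ((y₁ - y₂) / (x₁ - x₂)) ^ 2 - x₁ - x₂ := by
    rw [slope_of_X_ne hx]; simp [addX, E]
  exact ⟨_, e ▸ nonsingular_add h₁ h₂ fun hxy => hx hxy.left, by congr 1⟩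

lemma add_self_ne {x y : ℚ} (h : E.toAffine.Nonsingular x y) (hy : y ≠ 0) :
    ∃ y₃ h₃, Point.some x y h + Point.some x y h =
      Point.some ((x ^ 2 + 2) ^ 2 / (4 * y ^ 2)) y₃ h₃ := by
  have hy' : y ≠ E.toAffine.negY x y := by rw [negY_eq]; intro h; apply hy; linarith
  rw [Point.add_self_of_Y_ne hy']
  have e : E.toAffine.addX x x (E.toAffine.slope x x y y) = (x ^ 2 + 2) ^ 2 / (4 * y ^ 2) := by
    rw [slope_of_Y_ne rfl hy', negY_eq]
    have := ns_iff.1 h
    simp only [addX, E]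
    have h2 : y - -y ≠ 0 := by intro h; apply hy; linarith
    field_simp
    linear_combination (-32 * x) * this
  exact ⟨_, e ▸ nonsingular_add h h fun hxy => hy' hxy.right, by congr 1⟩

lemma add_self_zero {x : ℚ} (h : E.toAffine.Nonsingular x 0) :
    Point.some x 0 h + Point.some x 0 h = 0 :=
  Point.add_self_of_Y_eq (by rw [negY_eq]; simp)

/-- The naive logarithmic height. -/
noncomputable def ht (Q : Pt) : ℝ := logHeight Q.xRep

/-- The naive multiplicative height of a rational number. -/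
def Hq (q : ℚ) : ℕ := max q.num.natAbs q.den

lemma Hq_pos (q : ℚ) : 0 < Hq q := lt_of_lt_of_le q.den_pos (le_max_right _ _)

lemma ht_some {x y : ℚ} (h : E.toAffine.Nonsingular x y) :
    ht (Point.some x y h) = Real.log (Hq x) := by
  rw [ht, Point.xRep_some, ← logHeight₁_eq_logHeight, Rat.logHeight₁_eq_log_max, Hq]

lemma ht_nonneg (Q : Pt) : 0 ≤ ht Q := logHeight_nonneg _

lemma addSub (P Q : Pt) : ∃ c : ℚ, c ≠ 0 ∧
    (fun i => (addSubMap E i).eval (P.sym2x Q)) = c • (P + Q).sym2x (P - Q) := by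
  have ev : ∀ s t u : ℚ, (fun i => (addSubMap E i).eval ![s, t, u]) =
      ![s ^ 2 + 4 * s * u + 4 * u ^ 2, 2 * t * s - 4 * t * u, t ^ 2 - 4 * s * u] := by
    intro s t u
    funext i
    fin_cases i <;> simp [addSubMap, E, WeierstrassCurve.b₂, WeierstrassCurve.b₄,
      WeierstrassCurve.b₆, WeierstrassCurve.b₈] <;> ring
  have dbl : ∀ {x y : ℚ} (h : E.toAffine.Nonsingular x y), ∃ c : ℚ, c ≠ 0 ∧
      ![(x * x) ^ 2 + 4 * (x * x) * 1 + 4 * 1 ^ 2, 2 * (x + x) * (x * x) - 4 * (x + x) * 1,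
        (x + x) ^ 2 - 4 * (x * x) * 1] =
        c • (Point.some x y h + Point.some x y h).sym2x 0 := by
    intro x y h
    have he := ns_iff.1 h
    by_cases hy : y = 0
    · subst hy
      rw [add_self_zero]
      refine ⟨(x ^ 2 + 2) ^ 2, by positivity, ?_⟩
      funext i
      fin_cases i <;> simp
      · ring
      · linear_combination (-4) * he
      · ring
    · obtain ⟨y₃, h₃, e⟩ := add_self_ne h hy
      rw [e]
      refine ⟨4 * y ^ 2, by positivity, ?_⟩
      funext i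
      fin_cases i <;> simp
      · field_simp; ring
      · linear_combination (-4) * he
      · ring
  rcases P with _ | ⟨x₁, y₁, h₁⟩
  · rcases Q with _ | ⟨x₂, y₂, h₂⟩
    · refine ⟨1, one_ne_zero, ?_⟩
      simp [← Point.zero_def, ev]
    · refine ⟨1, one_ne_zero, ?_⟩
      rw [← Point.zero_def, zero_add, zero_sub, Point.sym2x_neg_right]
      simp only [Point.sym2x_zero_some, Point.sym2x_some_some, ev, one_smul]
      funext i; fin_cases i <;> simp <;> ring
  · rcases Q with _ | ⟨x₂, y₂, h₂⟩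
    · refine ⟨1, one_ne_zero, ?_⟩
      rw [← Point.zero_def, add_zero, sub_zero]
      simp only [Point.sym2x_some_zero, Point.sym2x_some_some, ev, one_smul]
      funext i; fin_cases i <;> simp <;> ring
    · by_cases hx : x₁ = x₂
      · rcases (Point.X_eq_iff (h₁ := h₁) (h₂ := h₂)).1 hx with e | e
        · rw [e, sub_self, Point.sym2x_some_some, ev]
          exact dbl h₂
        · rw [e, Point.sym2x_neg_left, neg_add_cancel, Point.sym2x_some_some, ev,
            show -Point.some x₂ y₂ h₂ - Point.some x₂ y₂ h₂ =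
              -(Point.some x₂ y₂ h₂ + Point.some x₂ y₂ h₂) by abel, Point.sym2x_neg_right,
            Point.sym2x_comm]
          exact dbl h₂
      · obtain ⟨y₃, h₃, e₃⟩ := add_ne h₁ h₂ hx
        rw [sub_eq_add_neg (Point.some x₁ y₁ h₁), neg_eq]
        obtain ⟨y₄, h₄, e₄⟩ := add_ne h₁ (ns_iff.2 (by rw [← ns_iff.1 h₂]; ring) :
          E.toAffine.Nonsingular x₂ (-y₂)) hx
        rw [e₃, e₄, Point.sym2x_some_some, Point.sym2x_some_some, ev]
        have hd : x₁ - x₂ ≠ 0 := sub_ne_zero.2 hx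
        have q₁ := ns_iff.1 h₁
        have q₂ := ns_iff.1 h₂
        refine ⟨(x₁ - x₂) ^ 2, by positivity, ?_⟩
        funext i
        fin_cases i <;> simp
        · field_simp
          have a1 : (y₁ - y₂) ^ 2 - x₁ * (x₁ - x₂) ^ 2 - x₂ * (x₁ - x₂) ^ 2 =
              (x₁ * x₂ - 2) * (x₁ + x₂) - 2 * y₁ * y₂ := by linear_combination q₁ + q₂
          have a2 : (y₁ + y₂) ^ 2 - x₁ * (x₁ - x₂) ^ 2 - x₂ * (x₁ - x₂) ^ 2 =
              (x₁ * x₂ - 2) * (x₁ + x₂) + 2 * y₁ * y₂ := by linear_combination q₁ + q₂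
          rw [a1, a2]
          linear_combination (4 * y₂ ^ 2) * q₁ + 4 * (x₁ ^ 3 - 2 * x₁) * q₂
        · field_simp
          linear_combination (-2) * q₁ - 2 * q₂
        · ring

theorem ht_par : ∃ C : ℝ, ∀ P Q : Pt, |ht (P + Q) + ht (P - Q) - 2 * (ht P + ht Q)| ≤ C := by
  obtain ⟨C₁, h₁⟩ := abs_logHeight_addSubMap_sub_two_mul_logHeight_le E
  obtain ⟨C₂, h₂⟩ := abs_logHeight_sym2_sub_le ℚ
  have h₃ : ∀ P Q : Pt, |logHeight (P.sym2x Q) - (ht P + ht Q)| ≤ C₂ := by
    intro P Q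
    have e : ∀ R : Pt, ![R.xRep 0, R.xRep 1] = R.xRep := by
      intro R; funext i; fin_cases i <;> rfl
    have := h₂ (a := P.xRep 0) (b := P.xRep 1) (c := Q.xRep 0) (d := Q.xRep 1)
      (by rw [e]; exact P.xRep_ne_zero) (by rw [e]; exact Q.xRep_ne_zero)
    rw [e, e] at this
    exact this
  refine ⟨C₁ + 3 * C₂, fun P Q => ?_⟩
  obtain ⟨c, hc, e⟩ := addSub P Q
  have a := h₁ (P.sym2x Q)
  rw [e, logHeight_smul_eq_logHeight _ hc] at a
  have b := h₃ P Q
  have d := h₃ (P + Q) (P - Q)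
  rw [abs_le] at a b d ⊢
  constructor <;> linarith [a.1, a.2, b.1, b.2, d.1, d.2]

instance : Northcott ht where
  finite_le B := by
    have h1 := NumberField.finite_setOfPred_logHeight₁_le (K := ℚ) B
    have h2 : ∀ x : ℚ, {Q : Pt | Q.xRep = ![x, 1]}.Finite := by
      intro x
      by_cases h : ∃ Q : Pt, Q.xRep = ![x, 1]
      · obtain ⟨Q, hQ⟩ := h
        refine (Set.toFinite {Q, -Q}).subset fun R hR => ?_
        exact Point.eq_or_eq_neg_of_xRep_eq_xRep (hR.trans hQ.symm)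
      · convert Set.finite_empty
        ext R; simpa using fun hR => h ⟨R, hR⟩
    refine ((h1.biUnion fun x _ => h2 x).insert 0).subset ?_
    rintro (_ | ⟨x, y, h⟩) hQ
    · left; rfl
    · right
      simp only [Set.mem_iUnion]
      exact ⟨x, by rw [Set.mem_ofPred_eq, logHeight₁_eq_logHeight]; exact hQ, rfl⟩

end Vale.Agent.P345
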