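import Vale.Agent.P345.Curve

/-!
Two-descent on `y^2 = x^3 - 2x`: the multiples of a suitable point have finite index.
-/

namespace Vale.Agent.P345

open WeierstrassCurve WeierstrassCurve.Affine Height

lemma class_lemma (k c : ℤ) (hk : k ∣ 2) (hc : c ∣ 2) (r t : ℚ) (hr : r ≠ 0)
    (h : t ^ 2 = k * r * (r ^ 2 + c)) :
    ∃ s : ℚ, s ≠ 0 ∧ (r = s ^ 2 ∨ r = - s ^ 2 ∨ r = 2 * s ^ 2 ∨ r = - (2 * s ^ 2)) := by
  set a := r.num with ha
  set b : ℤ := (r.den : ℤ) with hb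
  have ha0 : a ≠ 0 := Rat.num_ne_zero.2 hr
  have hb0 : (0 : ℤ) < b := by rw [hb]; exact_mod_cast r.den_pos
  have hbq : (b : ℚ) ≠ 0 := by exact_mod_cast hb0.ne'
  have hrab : r = a / b := by rw [ha, hb]; exact_mod_cast (Rat.num_div_den r).symm
  have hcop : IsCoprime a b := by
    rw [Int.isCoprime_iff_gcd_eq_one]; exact r.reduced
  obtain ⟨d, m, hd0, hm0, hdm, hsq⟩ := Nat.sq_mul_squarefree_of_pos (n := (a * b).natAbs)
    (Int.natAbs_pos.2 (mul_ne_zero ha0 hb0.ne'))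
  have hN : (t * b ^ 2) ^ 2 = ((k * (a * b) * (a ^ 2 + c * b ^ 2) : ℤ) : ℚ) := by
    rw [mul_pow, h, hrab]; push_cast; field_simp
  obtain ⟨N, hN'⟩ : IsSquare (k * (a * b) * (a ^ 2 + c * b ^ 2)) := by
    rw [← Rat.isSquare_intCast_iff, ← hN]; exact IsSquare.sq _
  obtain ⟨ε, hε, hab⟩ : ∃ ε : ℤ, (ε = 1 ∨ ε = -1) ∧ a * b = ε * (m ^ 2 * d) := by
    rcases Int.natAbs_eq (a * b) with e | e
    · exact ⟨1, Or.inl rfl, by rw [e, ← hdm]; push_cast; ring⟩
    · exact ⟨-1, Or.inr rfl, by rw [e, ← hdm]; push_cast; ring⟩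
  have hmz : (m : ℤ) ≠ 0 := by exact_mod_cast hm0.ne'
  obtain ⟨N', rfl⟩ : (m : ℤ) ∣ N := by
    rw [← Int.pow_dvd_pow_iff two_ne_zero, sq N, ← hN', hab]
    exact ⟨k * ε * d * (a ^ 2 + c * b ^ 2), by ring⟩
  have hN2 : N' ^ 2 = d * (k * ε * (a ^ 2 + c * b ^ 2)) := by
    apply mul_left_cancel₀ (pow_ne_zero 2 hmz)
    rw [hab] at hN'
    linear_combination -hN'
  have hd2 : ∀ {l : ℕ}, l.Prime → l ∣ d → l = 2 := by
    intro l hl hld
    by_contra hl2
    have hp : Prime (l : ℤ) := Nat.prime_iff_prime_int.1 hl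
    have hl2' : ¬ (l : ℤ) ∣ 2 := by
      intro h2
      exact hl2 ((Nat.prime_dvd_prime_iff_eq hl Nat.prime_two).1 (by exact_mod_cast h2))
    have hldz : (l : ℤ) ∣ d := by exact_mod_cast hld
    have h1 : (l : ℤ) ∣ N' := hp.dvd_of_dvd_pow (hN2 ▸ hldz.mul_right _)
    have h2 : (l : ℤ) ^ 2 ∣ d * (k * ε * (a ^ 2 + c * b ^ 2)) := hN2 ▸ pow_dvd_pow_of_dvd h1 2
    have h3 : ¬ (l : ℤ) ∣ k * ε * (a ^ 2 + c * b ^ 2) := by
      intro h4
      have hlab : (l : ℤ) ∣ a * b := hab ▸ (hldz.mul_left _).mul_left _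
      have hna : ¬ ((l : ℤ) ∣ a ∧ (l : ℤ) ∣ b) := fun h5 =>
        hp.not_isUnit (hcop.isUnit_of_dvd' h5.1 h5.2)
      rcases hp.dvd_or_dvd h4 with h5 | h5
      · rcases hp.dvd_or_dvd h5 with h6 | h6
        · exact hl2' (h6.trans hk)
        · rcases hε with rfl | rfl
          · exact hp.not_dvd_one h6
          · exact hp.not_dvd_one (dvd_neg.1 h6)
      · rcases hp.dvd_or_dvd hlab with h6 | h6
        · have h7 : (l : ℤ) ∣ c * b ^ 2 := (dvd_add_right (h6.pow two_ne_zero)).1 h5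
          rcases hp.dvd_or_dvd h7 with h8 | h8
          · exact hl2' (h8.trans hc)
          · exact hna ⟨h6, hp.dvd_of_dvd_pow h8⟩
        · have h7 : (l : ℤ) ∣ a ^ 2 := (dvd_add_left ((h6.pow two_ne_zero).mul_left c)).1 h5
          exact hna ⟨hp.dvd_of_dvd_pow h7, h6⟩
    have h4 : (l : ℤ) ^ 2 ∣ d := hp.pow_dvd_of_dvd_mul_right 2 h3 h2
    have h5 : l * l ∣ d := by rw [← sq]; exact_mod_cast h4
    exact hl.not_isUnit (hsq l h5)
  have hd : d ∣ 2 := by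
    have e := Nat.eq_prime_pow_of_unique_prime_dvd hd0.ne' hd2
    exact hsq.isRadical _ _ (e ▸ dvd_rfl : d ∣ 2 ^ d.primeFactorsList.length)
  have hr' : r = ε * d * (m / b) ^ 2 := by
    have : ((a * b : ℤ) : ℚ) = ((ε * (m ^ 2 * d) : ℤ) : ℚ) := by rw [hab]
    push_cast at this
    rw [hrab]; field_simp; linear_combination this
  refine ⟨m / b, div_ne_zero (by exact_mod_cast hm0.ne') hbq, ?_⟩
  rcases (Nat.dvd_prime Nat.prime_two).1 hd with rfl | rfl <;> rcases hε with rfl | rfl <;>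
    rw [hr'] <;> simp

lemma half_aux {w y s : ℚ} (hs : s ≠ 0) (hw : w ≠ 0) (h : E.toAffine.Nonsingular (w ^ 2) y)
    (e : w ^ 2 = s ^ 2 + 1 / (2 * s ^ 2)) : ∃ R : Pt, Point.some _ _ h = R + R := by
  have e' : 2 * s ^ 2 * w ^ 2 = 2 * s ^ 4 + 1 := by rw [e]; field_simp
  have hsw : s + w ≠ 0 := by
    intro h0
    have : w = -s := by linarith
    rw [this] at e'; linarith
  have h' : E.toAffine.Nonsingular (2 * s * (s + w)) (2 * s * (2 * s * (s + w))) := by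
    rw [ns_iff]; linear_combination (-(4 * s * (s + w))) * e'
  have hy : 2 * s * (2 * s * (s + w)) ≠ 0 := by positivity
  obtain ⟨y₃, h₃, e₃⟩ := add_self_ne h' hy
  have hx : w ^ 2 = ((2 * s * (s + w)) ^ 2 + 2) ^ 2 / (4 * (2 * s * (2 * s * (s + w))) ^ 2) := by
    have : (2 * s * (s + w)) ^ 2 + 2 = 2 * w * (2 * s * (2 * s * (s + w))) := by
      linear_combination (-2) * e'
    rw [this]; field_simp; norm_num
  rcases (Point.X_eq_iff (h₁ := h) (h₂ := h₃)).1 hx with e₄ | e₄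
  · exact ⟨_, e₄.trans e₃.symm⟩
  · exact ⟨-Point.some _ _ h', by rw [e₄, ← e₃]; abel⟩

lemma half_of_sq {x y w : ℚ} (hw : w ≠ 0) (h : E.toAffine.Nonsingular x y) (hx : x = w ^ 2) :
    ∃ R : Pt, Point.some _ _ h = R + R := by
  subst hx
  have he := ns_iff.1 h
  have h1 : (w ^ 2 + y / w) * (w ^ 2 - y / w) = 2 := by
    field_simp; linear_combination -he
  set u := w ^ 2 + y / w with hu
  have hu0 : u ≠ 0 := by intro h0; rw [h0] at h1; norm_num at h1
  have h2 : u ^ 2 + 2 = 2 * w ^ 2 * u := by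
    have : w ^ 2 - y / w = 2 * w ^ 2 - u := by rw [hu]; ring
    rw [this] at h1; linear_combination -h1
  have hup : 0 < u := by
    have : 0 < 2 * w ^ 2 * u := by rw [← h2]; positivity
    by_contra hn
    have : 2 * w ^ 2 * u ≤ 0 := mul_nonpos_of_nonneg_of_nonpos (by positivity) (not_lt.1 hn)
    linarith
  obtain ⟨s, hs, hcase⟩ := class_lemma 2 2 dvd_rfl dvd_rfl u (2 * w * u) hu0
    (by push_cast; rw [h2]; ring)
  have hs2 : 0 < s ^ 2 := by positivity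
  rcases hcase with e | e | e | e
  · refine half_aux (s := s⁻¹) (inv_ne_zero hs) hw h ?_
    rw [e] at h2; field_simp; linear_combination -h2
  · linarith
  · refine half_aux hs hw h ?_
    rw [e] at h2; field_simp; linear_combination (-1 / 2) * h2
  · linarith

/-- The point of order two. -/
def Tp : Pt := Point.some 0 0 (ns_iff.2 (by norm_num))

/-- A point of infinite order. -/
def Pp : Pt := Point.some (-1) 1 (ns_iff.2 (by norm_num))

lemma Tp_add_self : Tp + Tp = 0 := add_self_zero _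

lemma eq_Tp {y : ℚ} (h : E.toAffine.Nonsingular 0 y) : Point.some 0 y h = Tp := by
  have := ns_iff.1 h
  have hy : y = 0 := by simpa using this
  subst hy; rfl

lemma add_Tp {x y : ℚ} (h : E.toAffine.Nonsingular x y) (hx : x ≠ 0) :
    ∃ y₃ h₃, Point.some x y h + Tp = Point.some (-2 / x) y₃ h₃ := by
  obtain ⟨y₃, h₃, e⟩ := add_ne h (ns_iff.2 (by norm_num) : E.toAffine.Nonsingular 0 0) hx
  have hx' : ((y - 0) / (x - 0)) ^ 2 - x - 0 = -2 / x := by
    have := ns_iff.1 h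
    simp only [sub_zero]
    field_simp; linear_combination this
  exact ⟨y₃, hx' ▸ h₃, by rw [Tp, e]; congr 1⟩

/-- The finite set of representatives. -/
def Dec (Q : Pt) (k : ℤ) : Prop :=
  ∃ (R : Pt) (i j : ℤ), |i| ≤ 1 ∧ |j| ≤ k ∧ Q = i • Pp + j • Tp + (R + R)

lemma dec_negsq {x y s : ℚ} (h : E.toAffine.Nonsingular x y) (hs : s ≠ 0) (hx : x = - s ^ 2) :
    Dec (Point.some x y h) 1 := by
  by_cases h1 : x = -1
  · rcases (Point.X_eq_iff (h₁ := h) (h₂ := (ns_iff.2 (by norm_num) :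
      E.toAffine.Nonsingular (-1) 1))).1 h1 with e | e
    · exact ⟨0, 1, 0, by simp, by simp, by rw [e]; simp [Pp]⟩
    · exact ⟨0, -1, 0, by simp, by simp, by rw [e]; simp [Pp]⟩
  · obtain ⟨y₃, h₃, e⟩ := add_ne h (ns_iff.2 (by norm_num) : E.toAffine.Nonsingular (-1) 1) h1
    have hd : x - -1 ≠ 0 := sub_ne_zero.2 h1
    have he := ns_iff.1 h
    have hx3 : ((y - 1) / (x - -1)) ^ 2 - x - -1 = ((x + y) / (x - -1) / s) ^ 2 := by
      rw [div_pow _ s, show s ^ 2 = -x by rw [hx]; ring]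
      have hx0 : x ≠ 0 := by rw [hx]; exact neg_ne_zero.2 (pow_ne_zero 2 hs)
      field_simp
      linear_combination (x + 1) * he
    have e' : Point.some x y h = (-1 : ℤ) • Pp + Point.some _ y₃ h₃ := by
      rw [← e, neg_one_zsmul]; change _ = -Pp + (_ + Pp); abel
    by_cases h0 : (x + y) / (x - -1) / s = 0
    · have h4 : ((y - 1) / (x - -1)) ^ 2 - x - -1 = 0 := by rw [hx3, h0]; simp
      have h5 : Point.some _ y₃ h₃ = Tp := by
        rw [← eq_Tp (h4 ▸ h₃)]; congr 1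
      exact ⟨0, -1, 1, by simp, by simp, by rw [e', h5]; simp⟩
    · obtain ⟨R, hR⟩ := half_of_sq h0 h₃ hx3
      exact ⟨R, -1, 0, by simp, by simp, by rw [e', hR]; simp⟩

lemma dec_all (Q : Pt) : Dec Q 2 := by
  rcases Q with _ | ⟨x, y, h⟩
  · exact ⟨0, 0, 0, by simp, by simp, by simp [← Point.zero_def]⟩
  by_cases hx : x = 0
  · subst hx
    exact ⟨0, 0, 1, by simp, by simp, by rw [eq_Tp]; simp⟩
  obtain ⟨s, hs, hcase⟩ := class_lemma 1 (-2) (one_dvd _) (by norm_num) x y hx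
    (by rw [ns_iff.1 h]; push_cast; ring)
  obtain ⟨y₃, h₃, e₃⟩ := add_Tp h hx
  have e' : Point.some x y h = (-1 : ℤ) • Tp + Point.some _ y₃ h₃ := by
    rw [← e₃]; simp
  rcases hcase with e | e | e | e
  · obtain ⟨R, hR⟩ := half_of_sq hs h e
    exact ⟨R, 0, 0, by simp, by simp, by rw [hR]; simp⟩
  · obtain ⟨R, i, j, hi, hj, hR⟩ := dec_negsq h hs e
    exact ⟨R, i, j, hi, by linarith, hR⟩
  · obtain ⟨R, i, j, hi, hj, hR⟩ := dec_negsq h₃ (inv_ne_zero hs) (by rw [e]; field_simp)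
    refine ⟨R, i, j - 1, hi, ?_, by rw [e', hR, sub_zsmul]; simp; abel⟩
    rw [abs_le] at hj ⊢; constructor <;> linarith [hj.1, hj.2]
  · obtain ⟨R, hR⟩ := half_of_sq (inv_ne_zero hs) h₃ (by rw [e]; field_simp)
    exact ⟨R, 0, -1, by simp, by simp, by rw [e', hR]; simp⟩

lemma pt_fg : AddGroup.FG Pt := by
  obtain ⟨C, hC⟩ := ht_par
  have hfi : (nsmulAddMonoidHom (α := Pt) 2).range.FiniteIndex := by
    have : Finite (Pt ⧸ (nsmulAddMonoidHom (α := Pt) 2).range) := by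
      refine Finite.of_surjective (fun p : Set.Icc (-1 : ℤ) 1 × Set.Icc (-2 : ℤ) 2 =>
        QuotientAddGroup.mk (p.1.1 • Pp + p.2.1 • Tp)) fun q => ?_
      obtain ⟨Q, rfl⟩ := QuotientAddGroup.mk_surjective q
      obtain ⟨R, i, j, hi, hj, hR⟩ := dec_all Q
      refine ⟨(⟨i, abs_le.1 hi⟩, ⟨j, abs_le.1 hj⟩), ?_⟩
      simp only [QuotientAddGroup.eq]
      exact ⟨R, by rw [hR, nsmulAddMonoidHom_apply, two_nsmul]; abel⟩
    exact AddSubgroup.finiteIndex_of_finite_quotient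
  exact AddCommGroup.fg_of_descent' hfi ht_nonneg hC

lemma exists_mul_mem : ∃ r : ℤ, r ≠ 0 ∧ ∀ Q : Pt, ∃ i : ℤ, r • Q = i • Pp := by
  have := pt_fg
  have hF : Module.Finite ℤ Pt := Module.Finite.iff_addGroup_fg.2 this
  let B : Submodule ℤ Pt := Submodule.span ℤ {Pp, Tp}
  obtain ⟨r, hr1, hr2⟩ := Submodule.exists_sub_one_mem_and_smul_eq_zero_of_fg_of_le_smul
    (Ideal.span {(2 : ℤ)}) (⊤ : Submodule ℤ (Pt ⧸ B)) Module.Finite.fg_top (by
      intro q _
      obtain ⟨Q, rfl⟩ := Submodule.Quotient.mk_surjective B q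
      obtain ⟨R, i, j, -, -, hR⟩ := dec_all Q
      have : Submodule.Quotient.mk (p := B) Q = (2 : ℤ) • Submodule.Quotient.mk R := by
        rw [← Submodule.Quotient.mk_smul, Submodule.Quotient.eq, hR, two_zsmul,
          add_sub_cancel_right]
        exact B.add_mem (B.smul_mem _ (Submodule.subset_span (by simp)))
          (B.smul_mem _ (Submodule.subset_span (by simp)))
      rw [this]
      exact Submodule.smul_mem_smul (Ideal.mem_span_singleton_self _) trivial)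
  have hr0 : r ≠ 0 := by
    rintro rfl
    rw [Ideal.mem_span_singleton] at hr1
    norm_num at hr1
  refine ⟨2 * r, mul_ne_zero two_ne_zero hr0, fun Q => ?_⟩
  have h1 := hr2 (Submodule.Quotient.mk Q) trivial
  rw [← Submodule.Quotient.mk_smul, Submodule.Quotient.mk_eq_zero,
    Submodule.mem_span_pair] at h1
  obtain ⟨i, j, hij⟩ := h1
  refine ⟨2 * i, ?_⟩
  have e2 : j • Tp + j • Tp = 0 := by rw [← zsmul_add, Tp_add_self, zsmul_zero]
  rw [mul_zsmul, mul_zsmul, ← hij, two_zsmul, two_zsmul]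
  calc i • Pp + j • Tp + (i • Pp + j • Tp) = i • Pp + i • Pp + (j • Tp + j • Tp) := by abel
    _ = _ := by rw [e2, add_zero]

lemma finite_quot (n : ℕ) (hn : n ≠ 0) : Finite (Pt ⧸ AddSubgroup.zmultiples (n • Pp)) := by
  have := pt_fg
  obtain ⟨r, hr, h⟩ := exists_mul_mem
  have hF : Module.Finite ℤ (Pt ⧸ AddSubgroup.zmultiples (n • Pp)) :=
    Module.Finite.iff_addGroup_fg.2 inferInstance
  refine Module.finite_of_fg_torsion _ fun q => ?_
  obtain ⟨Q, rfl⟩ := QuotientAddGroup.mk_surjective q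
  obtain ⟨i, hi⟩ := h Q
  refine ⟨⟨n * r, mem_nonZeroDivisors_of_ne_zero (mul_ne_zero (by exact_mod_cast hn) hr)⟩, ?_⟩
  change ((n * r : ℤ) • (QuotientAddGroup.mk Q : Pt ⧸ AddSubgroup.zmultiples (n • Pp))) = 0
  rw [← QuotientAddGroup.mk_zsmul, QuotientAddGroup.eq_zero_iff, mul_smul, hi, smul_comm,
    natCast_zsmul]
  exact AddSubgroup.zsmul_mem_zmultiples _ _

lemma pow_Pp (j : ℕ) : ∃ x y h, (2 ^ (j + 1) : ℕ) • Pp = Point.some x y h ∧
    padicValRat 2 x = -2 * (j + 1) := by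
  have v2 : padicValRat 2 2 = 1 := by simpa using padicValRat.self (p := 2) one_lt_two
  have step : ∀ x y : ℚ, y ^ 2 = x ^ 3 - 2 * x → padicValRat 2 x < 0 →
      y ≠ 0 ∧ padicValRat 2 ((x ^ 2 + 2) ^ 2 / (4 * y ^ 2)) = padicValRat 2 x - 2 := by
    intro x y he hv
    have hx : x ≠ 0 := by rintro rfl; simp at hv
    have hx2 : padicValRat 2 (x ^ 2) = 2 * padicValRat 2 x := by rw [padicValRat.pow x]; simp
    have hp : x ^ 2 + 2 ≠ 0 := by positivity
    have hm : x ^ 2 + -2 ≠ 0 := by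
      intro h0
      have : x ^ 2 = 2 := by linarith
      rw [this, v2] at hx2; omega
    have h1 : padicValRat 2 (x ^ 2 + 2) = 2 * padicValRat 2 x := by
      rw [padicValRat.add_eq_of_lt hp (pow_ne_zero 2 hx) two_ne_zero (by rw [hx2, v2]; omega), hx2]
    have h2 : padicValRat 2 (x ^ 2 + -2) = 2 * padicValRat 2 x := by
      rw [padicValRat.add_eq_of_lt hm (pow_ne_zero 2 hx) (by norm_num)
        (by rw [hx2, padicValRat.neg, v2]; omega), hx2]
    have he' : y ^ 2 = x * (x ^ 2 + -2) := by rw [he]; ring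
    have hy2 : y ^ 2 ≠ 0 := by rw [he']; exact mul_ne_zero hx hm
    have h4 : padicValRat 2 4 = 2 := by
      rw [show (4 : ℚ) = 2 ^ 2 by norm_num, padicValRat.pow, v2]; simp
    refine ⟨fun h0 => hy2 (by rw [h0]; simp), ?_⟩
    rw [padicValRat.div (pow_ne_zero 2 hp) (mul_ne_zero (by norm_num) hy2), padicValRat.pow (x ^ 2 + 2),
      padicValRat.mul (by norm_num) hy2, h1, h4, he', padicValRat.mul hx hm, h2]
    push_cast; ring
  induction j with
  | zero =>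
    obtain ⟨y₃, h₃, e⟩ := add_self_ne (ns_iff.2 (by norm_num) : E.toAffine.Nonsingular (-1) 1)
      one_ne_zero
    refine ⟨_, y₃, h₃, by rw [← e, Pp]; simp [two_nsmul], ?_⟩
    rw [show (((-1 : ℚ)) ^ 2 + 2) ^ 2 / (4 * 1 ^ 2) = 3 ^ 2 / 2 ^ 2 by norm_num,
      padicValRat.div (by norm_num) (by norm_num), padicValRat.pow,
      padicValRat.pow, v2]
    have : padicValRat 2 3 = 0 := by
      rw [show (3 : ℚ) = ((3 : ℕ) : ℚ) by norm_num, padicValRat.of_nat,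
        padicValNat.eq_zero_of_not_dvd (by norm_num)]
      simp
    rw [this]; norm_num
  | succ j ih =>
    obtain ⟨x, y, h, e, hv⟩ := ih
    obtain ⟨hy, hv'⟩ := step x y (ns_iff.1 h) (by rw [hv]; omega)
    obtain ⟨y₃, h₃, e₃⟩ := add_self_ne h hy
    refine ⟨_, y₃, h₃, by rw [← e₃, ← e, pow_succ, mul_comm, mul_nsmul', two_nsmul], ?_⟩
    rw [hv', hv]; push_cast; ring

lemma exists_big_mul (B : ℝ) : ∃ (n : ℕ) (x y : ℚ) (h : E.toAffine.Nonsingular x y), n ≠ 0 ∧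
    n • Pp = Point.some x y h ∧ B < ht (n • Pp) := by
  have hinj : Function.Injective (fun j : ℕ => (2 ^ (j + 1) : ℕ) • Pp) := by
    intro i j hij
    obtain ⟨x, y, h, e, hv⟩ := pow_Pp i
    obtain ⟨x', y', h', e', hv'⟩ := pow_Pp j
    simp only at hij
    rw [e, e', Point.some.injEq] at hij
    rw [hij.1, hv'] at hv
    omega
  by_contra hcon
  have hfin : {Q : Pt | ht Q ≤ B}.Finite := Northcott.finite_le B
  refine Set.infinite_range_of_injective hinj (hfin.subset ?_)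
  rintro _ ⟨j, rfl⟩
  obtain ⟨x, y, h, e, -⟩ := pow_Pp j
  by_contra hlt
  exact hcon ⟨_, x, y, h, by positivity, e, not_le.1 hlt⟩

/-- The rational points selected by the level `y`. -/
def Sig (xS yS : ℚ) (y : ℕ) : Set (ℚ × ℚ) :=
  {p | p.2 ^ 2 = p.1 ^ 3 - 2 * p.1 ∧ p.1 ≠ xS ∧
    Hq p.1 ≤ y * Hq (((p.2 + yS) / (p.1 - xS)) ^ 2 - p.1 - xS) ∧
    y * Hq p.1 < Hq (((p.2 - yS) / (p.1 - xS)) ^ 2 - p.1 - xS)}

theorem curve_main : ∃ (xS yS : ℚ) (I y0 : ℕ) (c1 c2 : ℝ), 0 < I ∧ 0 < c1 ∧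
    ∀ y : ℕ, y0 ≤ y → (Sig xS yS y).ncard = I ∧ ∀ p ∈ Sig xS yS y,
      c1 * Real.log y ^ 2 ≤ Real.log (Hq p.1) ∧ Real.log (Hq p.1) ≤ c2 * Real.log y ^ 2 := by
  obtain ⟨C, hC⟩ := ht_par
  obtain ⟨n, xS, yS, hS, hn, eS, hB⟩ := exists_big_mul ((C + 1) / 2)
  have hfin := finite_quot n hn
  generalize n • Pp = S at eS hB hfin
  have hD : ∀ Q, Df ht S Q - Df ht S (Q - S) = ht (Q + S) + ht (Q - S) - 2 * ht Q := by
    intro Q; simp only [Df, sub_add_cancel]; ring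
  have ha : ∀ Q, Df ht S (Q - S) + 1 ≤ Df ht S Q := by
    intro Q; have := (abs_le.1 (hC Q S)).1; linarith [hD Q]
  have hb : ∀ Q, Df ht S Q ≤ Df ht S (Q - S) + (2 * ht S + C) := by
    intro Q; have := (abs_le.1 (hC Q S)).2; linarith [hD Q]
  obtain ⟨c1, c2, Y0, hc1, hbd⟩ := cross_bounds ht_nonneg one_pos ha hb
  obtain ⟨y0, hy0⟩ := exists_nat_ge (Real.exp (max Y0 (max (Df ht S 0) (max (Df ht S S)
    (Df ht S (-S))))))
  refine ⟨xS, yS, Nat.card (Pt ⧸ AddSubgroup.zmultiples S), y0, c1, c2, Nat.card_pos, hc1,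
    fun y hy => ?_⟩
  have hy1 : Real.exp (max Y0 (max (Df ht S 0) (max (Df ht S S) (Df ht S (-S))))) ≤ y :=
    hy0.trans (by exact_mod_cast hy)
  have hypos : (0 : ℝ) < y := lt_of_lt_of_le (Real.exp_pos _) hy1
  rw [← Real.le_log_iff_exp_le hypos] at hy1
  simp only [max_le_iff] at hy1
  obtain ⟨l0, l1, l2, l3⟩ := hy1
  have key : ∀ {x z : ℚ} (h : E.toAffine.Nonsingular x z), x ≠ xS →
      (Point.some x z h ∈ Cross ht S (Real.log y) ↔ (x, z) ∈ Sig xS yS y) := by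
    intro x z h hx
    obtain ⟨y₃, h₃, e₃⟩ := add_ne h hS hx
    obtain ⟨y₄, h₄, e₄⟩ := add_ne h (ns_iff.2 (by rw [← ns_iff.1 hS]; ring) :
      E.toAffine.Nonsingular xS (-yS)) hx
    rw [← neg_eq hS, ← sub_eq_add_neg, ← eS] at e₄
    rw [← eS] at e₃
    simp only [Cross, Df, Set.mem_ofPred_eq, sub_add_cancel, e₃, e₄, ht_some, Sig,
      ns_iff.1 h, hx, ne_eq, not_false_eq_true, true_and, sub_neg_eq_add]
    have p1 : (0 : ℝ) < Hq x := by exact_mod_cast Hq_pos _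
    have p2 : (0 : ℝ) < Hq (((z + yS) / (x - xS)) ^ 2 - x - xS) := by exact_mod_cast Hq_pos _
    have p3 : (0 : ℝ) < Hq (((z - yS) / (x - xS)) ^ 2 - x - xS) := by exact_mod_cast Hq_pos _
    rw [sub_le_iff_le_add, lt_sub_iff_add_lt, ← Real.log_mul hypos.ne' p2.ne',
      ← Real.log_mul hypos.ne' p1.ne', Real.log_le_log_iff p1 (mul_pos hypos p2),
      Real.log_lt_log_iff (mul_pos hypos p1) p3]
    norm_cast
  have aff : ∀ Q ∈ Cross ht S (Real.log y), ∃ x z h, Q = Point.some x z h ∧ x ≠ xS := by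
    rintro (_ | ⟨x, z, h⟩) hQ
    · exact absurd hQ.2 (not_lt.2 l1)
    · refine ⟨x, z, h, rfl, fun hx => ?_⟩
      rcases (Point.X_eq_iff (h₁ := h) (h₂ := hS)).1 hx with e | e
      · rw [e, ← eS] at hQ; exact absurd hQ.2 (not_lt.2 l2)
      · rw [e, ← eS] at hQ; exact absurd hQ.2 (not_lt.2 l3)
  constructor
  · rw [← cross_ncard one_pos ha (Real.log y)]
    refine Set.ncard_congr (fun p hp => Point.some p.1 p.2 (ns_iff.2 hp.1)) ?_ ?_ ?_
    · intro p hp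
      exact (key _ hp.2.1).2 hp
    · intro p q hp hq e
      rw [Point.some.injEq] at e
      exact Prod.ext e.1 e.2
    · intro Q hQ
      obtain ⟨x, z, h, rfl, hx⟩ := aff Q hQ
      exact ⟨(x, z), (key h hx).1 hQ, rfl⟩
  · intro p hp
    have := hbd _ l0 _ ((key (ns_iff.2 hp.1) hp.2.1).2 hp)
    rwa [ht_some] at this

end Vale.Agent.P345
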