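import Vale.Agent.P345.SF

/-!
From the internal notion `SF` to an explicit integer polynomial.
-/

namespace Vale.Agent.P345

open MvPolynomial

theorem SF.toPoly {n : ℕ} {p : (Fin n → ℕ) → Prop} (h : SF p) :
    ∃ (m : ℕ) (P : MvPolynomial (Fin n ⊕ Fin m) ℤ),
      (∀ a : Fin n → ℕ, p a ↔ ∃ w : Fin m → ℕ,
        eval (Sum.elim (fun i => (a i : ℤ)) (fun j => (w j : ℤ))) P = 0) ∧
      ∀ a : Fin n → ℕ, Set.Subsingleton {w : Fin m → ℕ |
        eval (Sum.elim (fun i => (a i : ℤ)) (fun j => (w j : ℤ))) P = 0} := by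
  obtain ⟨β, _, r, ⟨f, g, ⟨P, hP⟩, ⟨Q, hQ⟩, hr⟩, H, U⟩ := h
  obtain ⟨m, ⟨e⟩⟩ := Finite.exists_equiv_fin β
  have key : ∀ (R : MvPolynomial (Fin n ⊕ β) ℕ) (a : Fin n → ℕ) (w : Fin m → ℕ),
      eval (Sum.elim (fun i => (a i : ℤ)) (fun j => (w j : ℤ)))
        (rename (Sum.map id e) (map (Nat.castRingHom ℤ) R)) =
        ((eval (Sum.elim a (w ∘ e)) R : ℕ) : ℤ) := by
    intro R a w
    induction R using MvPolynomial.induction_on with
    | C c => simp
    | add p q hp hq => simp [hp, hq]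
    | mul_X p i hp =>
      simp only [map_mul, hp, map_X, rename_X, eval_X, Nat.cast_mul]
      cases i <;> rfl
  have key2 : ∀ (a : Fin n → ℕ) (w : Fin m → ℕ),
      eval (Sum.elim (fun i => (a i : ℤ)) (fun j => (w j : ℤ)))
        (rename (Sum.map id e) (map (Nat.castRingHom ℤ) P) -
          rename (Sum.map id e) (map (Nat.castRingHom ℤ) Q)) = 0 ↔ r (Sum.elim a (w ∘ e)) := by
    intro a w
    rw [map_sub, key, key, hr, hP, hQ, sub_eq_zero, Nat.cast_inj]
  refine ⟨m, rename (Sum.map id e) (map (Nat.castRingHom ℤ) P) -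
    rename (Sum.map id e) (map (Nat.castRingHom ℤ) Q), fun a => ?_, fun a w hw w' hw' => ?_⟩
  rotate_left
  · have := U a _ _ ((key2 a w).1 hw) ((key2 a w').1 hw')
    funext j
    simpa using congrFun this (e.symm j)
  · simp only [key2]
    rw [H]
    constructor
    · rintro ⟨w, hw⟩
      exact ⟨w ∘ e.symm, by simpa [Function.comp_assoc] using hw⟩
    · rintro ⟨w, hw⟩
      exact ⟨_, hw⟩

end Vale.Agent.P345
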