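import Mathlib

/-!
An abelian group with a height whose second differences along `S` are bounded above and below.
-/

namespace Vale.Agent.P345

section
variable {A : Type*} [AddCommGroup A] (h : A → ℝ) (S : A)

/-- First difference of the height along `S`. -/
def Df (Q : A) : ℝ := h (Q + S) - h Q

/-- The points where the first difference crosses the level `Y`. -/
def Cross (Y : ℝ) : Set A := {Q | Df h S (Q - S) ≤ Y ∧ Y < Df h S Q}

variable {h S} {a b : ℝ}

lemma Df_lower (ha : ∀ Q, Df h S (Q - S) + a ≤ Df h S Q) (Q : A) (n : ℕ) :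
    Df h S Q + n * a ≤ Df h S (Q + n • S) := by
  induction n with
  | zero => simp
  | succ n ih =>
    have := ha (Q + (n + 1) • S)
    rw [show Q + (n + 1) • S - S = Q + n • S by rw [succ_nsmul]; abel] at this
    push_cast; linarith

lemma Df_mono (a0 : 0 < a) (ha : ∀ Q, Df h S (Q - S) + a ≤ Df h S Q) (Q : A) :
    StrictMono (fun n : ℤ => Df h S (Q + n • S)) := by
  refine strictMono_int_of_lt_succ fun n => ?_
  have := ha (Q + (n + 1) • S)
  rw [show Q + (n + 1) • S - S = Q + n • S by rw [add_zsmul, one_zsmul]; abel] at this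
  linarith

lemma cross_bij (a0 : 0 < a) (ha : ∀ Q, Df h S (Q - S) + a ≤ Df h S Q) (Y : ℝ) :
    Function.Bijective (fun Q : Cross h S Y =>
      (QuotientAddGroup.mk Q.1 : A ⧸ AddSubgroup.zmultiples S)) := by
  constructor
  · rintro ⟨Q, hQ⟩ ⟨R, hR⟩ e
    simp only [QuotientAddGroup.eq, AddSubgroup.mem_zmultiples_iff] at e
    obtain ⟨n, hn⟩ := e
    have hRQ : R = Q + n • S := by rw [hn]; abel
    have hm := Df_mono a0 ha Q
    have e1 : Q - S = Q + (-1 : ℤ) • S := by simp [sub_eq_add_neg]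
    have e2 : R - S = Q + (n - 1) • S := by rw [hRQ, sub_zsmul, one_zsmul]; abel
    have e0 : Q = Q + (0 : ℤ) • S := by simp
    have h1 : Df h S (Q + (n - 1) • S) < Df h S (Q + (0 : ℤ) • S) := by
      rw [← e2, ← e0]; exact lt_of_le_of_lt hR.1 hQ.2
    have h2 : Df h S (Q + (-1 : ℤ) • S) < Df h S (Q + n • S) := by
      rw [← e1, ← hRQ]; exact lt_of_le_of_lt hQ.1 hR.2
    have h3 := hm.lt_iff_lt.1 h1
    have h4 := hm.lt_iff_lt.1 h2
    have : n = 0 := by omega
    ext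
    simp [hRQ, this]
  · intro q
    obtain ⟨R, rfl⟩ := QuotientAddGroup.mk_surjective q
    have hm := Df_mono a0 ha R
    have hex : ∃ n : ℤ, Y < Df h S (R + n • S) := by
      obtain ⟨n, hn⟩ := exists_nat_gt ((Y - Df h S R) / a)
      refine ⟨n, ?_⟩
      have := Df_lower ha R n
      rw [div_lt_iff₀ a0] at hn
      rw [natCast_zsmul]; linarith
    have hbd : ∃ m : ℤ, ∀ n : ℤ, Y < Df h S (R + n • S) → m ≤ n := by
      obtain ⟨m, hm'⟩ := exists_nat_gt ((Df h S R - Y) / a)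
      refine ⟨-m, fun n hn => ?_⟩
      by_contra hlt
      have h1 := hm.monotone (not_le.1 hlt).le
      have := Df_lower ha (R + (-(m : ℤ)) • S) m
      rw [show R + (-(m : ℤ)) • S + m • S = R by simp] at this
      rw [div_lt_iff₀ a0] at hm'
      linarith
    obtain ⟨n, hn1, hn2⟩ := Int.exists_least_of_bdd hbd hex
    refine ⟨⟨R + n • S, ?_, hn1⟩, ?_⟩
    · by_contra hlt
      rw [show R + n • S - S = R + (n - 1) • S by rw [sub_zsmul, one_zsmul]; abel] at hlt
      have := hn2 _ (not_le.1 hlt)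
      omega
    · simp only [QuotientAddGroup.eq, AddSubgroup.mem_zmultiples_iff]
      exact ⟨-n, by simp⟩

lemma cross_ncard (a0 : 0 < a) (ha : ∀ Q, Df h S (Q - S) + a ≤ Df h S Q) (Y : ℝ) :
    (Cross h S Y).ncard = Nat.card (A ⧸ AddSubgroup.zmultiples S) := by
  rw [← Nat.card_coe_set_eq]
  exact Nat.card_eq_of_bijective _ (cross_bij a0 ha Y)

lemma height_lower (h0 : ∀ Q, 0 ≤ h Q) (b0 : 0 ≤ b) (hb : ∀ Q, Df h S Q ≤ Df h S (Q - S) + b)
    (k : ℕ) : ∀ Q, k * (Df h S Q - k * b) ≤ h Q := by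
  induction k with
  | zero => intro Q; simpa using h0 Q
  | succ k ih =>
    intro Q
    have h1 := ih (Q - S)
    have h2 := hb Q
    have h3 : Df h S (Q - S) = h Q - h (Q - S) := by simp [Df]
    have hk : (0 : ℝ) ≤ k := Nat.cast_nonneg k
    have h4 := mul_le_mul_of_nonneg_left h2 hk
    have h5 := mul_nonneg hk b0
    push_cast
    nlinarith

lemma height_upper (a0 : 0 < a) (ha : ∀ Q, Df h S (Q - S) + a ≤ Df h S Q) (Q : A) (n : ℕ) :
    h (Q + n • S) ≤ h Q + n * Df h S (Q + n • S) := by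
  induction n with
  | zero => simp
  | succ n ih =>
    have h1 := ha (Q + (n + 1) • S)
    rw [show Q + (n + 1) • S - S = Q + n • S by rw [succ_nsmul]; abel] at h1
    have h2 : Df h S (Q + n • S) = h (Q + (n + 1) • S) - h (Q + n • S) := by
      rw [Df, succ_nsmul, add_assoc]
    have hn : (0 : ℝ) ≤ n := Nat.cast_nonneg n
    have h3 : Df h S (Q + n • S) ≤ Df h S (Q + (n + 1) • S) := by linarith
    have h4 := mul_le_mul_of_nonneg_left h3 hn
    push_cast
    linarith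

theorem cross_bounds (h0 : ∀ Q, 0 ≤ h Q) (a0 : 0 < a) (ha : ∀ Q, Df h S (Q - S) + a ≤ Df h S Q)
    (hb : ∀ Q, Df h S Q ≤ Df h S (Q - S) + b) [Finite (A ⧸ AddSubgroup.zmultiples S)] :
    ∃ c1 c2 Y0 : ℝ, 0 < c1 ∧ ∀ Y, Y0 ≤ Y → ∀ Q ∈ Cross h S Y,
      c1 * Y ^ 2 ≤ h Q ∧ h Q ≤ c2 * Y ^ 2 := by
  have b0 : 0 < b := by linarith [ha 0, hb 0]
  have hfin : Finite (Cross h S 0) := Finite.of_injective _ (cross_bij a0 ha 0).1
  obtain ⟨H0, hH0⟩ := (Set.finite_range (fun Q : Cross h S 0 => h Q.1)).bddAbove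
  refine ⟨1 / (8 * b), |H0| + 4 / a, max (4 * b) 1, by positivity, fun Y hY Q hQ => ⟨?_, ?_⟩⟩
  · have hY1 : 4 * b ≤ Y := (le_max_left _ _).trans hY
    have hY0 : 0 ≤ Y / (2 * b) := by apply div_nonneg <;> linarith
    have h1 := height_lower h0 b0.le hb ⌊Y / (2 * b)⌋₊ Q
    have h2 := Nat.floor_le hY0
    have h3 := Nat.lt_floor_add_one (Y / (2 * b))
    generalize (⌊Y / (2 * b)⌋₊ : ℝ) = k at h1 h2 h3
    rw [le_div_iff₀ (by linarith)] at h2
    rw [div_lt_iff₀ (by linarith)] at h3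
    have h4 : Y / 2 ≤ Df h S Q - k * b := by linarith [hQ.2]
    have h5 : Y / (4 * b) ≤ k := by rw [div_le_iff₀ (by linarith)]; linarith
    have h6 : 0 ≤ Y / (4 * b) := by apply div_nonneg <;> linarith
    calc 1 / (8 * b) * Y ^ 2 = Y / (4 * b) * (Y / 2) := by field_simp; ring
      _ ≤ k * (Df h S Q - k * b) := mul_le_mul h5 h4 (by linarith) (h6.trans h5)
      _ ≤ _ := h1
  · have hY1 : 4 * b ≤ Y := (le_max_left _ _).trans hY
    have hY2 : 1 ≤ Y := (le_max_right _ _).trans hY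
    obtain ⟨⟨R, hR⟩, e⟩ := (cross_bij a0 ha 0).2 (QuotientAddGroup.mk Q)
    simp only [QuotientAddGroup.eq, AddSubgroup.mem_zmultiples_iff] at e
    obtain ⟨n, hn⟩ := e
    have hQR : Q = R + n • S := by rw [hn]; abel
    have hn0 : 0 ≤ n := by
      have h2 : Df h S (R + (-1 : ℤ) • S) < Df h S (R + n • S) := by
        rw [← hQR, show R + (-1 : ℤ) • S = R - S by simp [sub_eq_add_neg]]
        linarith [hR.1, hQ.2]
      have := (Df_mono a0 ha R).lt_iff_lt.1 h2
      omega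
    obtain ⟨m, rfl⟩ := Int.eq_ofNat_of_zero_le hn0
    rw [natCast_zsmul] at hQR
    have h1 := height_upper a0 ha R m
    have h2 := Df_lower ha R m
    rw [← hQR] at h1 h2
    have h3 : Df h S Q ≤ 2 * Y := by linarith [hb Q, hQ.1]
    have h4 : (m : ℝ) ≤ 2 * Y / a := by rw [le_div_iff₀ a0]; linarith [hR.2]
    have h5 : h R ≤ |H0| := (hH0 ⟨⟨R, hR⟩, rfl⟩).trans (le_abs_self _)
    have h6 : (m : ℝ) * Df h S Q ≤ 2 * Y / a * (2 * Y) :=
      mul_le_mul h4 h3 (by linarith [hQ.2]) (by positivity)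
    have h7 : |H0| ≤ |H0| * Y ^ 2 := le_mul_of_one_le_right (abs_nonneg _) (one_le_pow₀ hY2)
    have h8 : 2 * Y / a * (2 * Y) = 4 / a * Y ^ 2 := by ring
    linarith

end

end Vale.Agent.P345
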