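import Vale.Agent.P345.Rat

/-!
Exponentiation is single-fold Diophantine.
-/

namespace Vale.Agent.P345

variable {α : Type}

open Pell

lemma yn_le_pow {b : ℕ} (hb : 1 < b) (n : ℕ) : yn hb n ≤ (2 * b) ^ n := by
  have key : ∀ n, yn hb (n + 1) ≤ (2 * b) ^ n := by
    intro n
    induction n with
    | zero => simp
    | succ n ih =>
      have := yn_succ_succ hb n
      calc yn hb (n + 2) ≤ 2 * b * yn hb (n + 1) := by omega
        _ ≤ 2 * b * (2 * b) ^ n := Nat.mul_le_mul_left _ ih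
        _ = (2 * b) ^ (n + 1) := by ring
  cases n with
  | zero => simp
  | succ n => exact (key n).trans (Nat.pow_le_pow_right (by omega) (by omega))

lemma pell_iff {b : ℕ} (hb : 1 < b) (X Y : ℕ) :
    X * X = (b * b - 1) * Y * Y + 1 ↔ ∃ j, X = xn hb j ∧ Y = yn hb j := by
  constructor
  · intro h
    exact eq_pell hb (show X * X - (b * b - 1) * Y * Y = 1 by omega)
  · rintro ⟨j, rfl, rfl⟩
    have : xn hb j * xn hb j - (b * b - 1) * yn hb j * yn hb j = 1 := pell_eq hb j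
    omega

lemma pell_two {b : ℕ} (hb : 1 < b) (n : ℕ) :
    xn hb n ≡ 2 ^ n + (b - 2) * yn hb n [MOD (4 * b - 5)] := by
  have h := x_sub_y_dvd_pow hb 2 n
  rw [Nat.modEq_iff_dvd]
  have e1 : ((4 * b - 5 : ℕ) : ℤ) = 2 * b * (2 : ℕ) - (2 : ℕ) * (2 : ℕ) - 1 := by
    push_cast; omega
  rw [e1]
  convert h using 1
  simp only [xz, yz]
  push_cast [Nat.cast_sub (show 2 ≤ b from hb)]
  ring

theorem SF_two_pow : SF (fun v : Fin 2 → ℕ => v 0 = 2 ^ v 1) := by
  obtain ⟨G, y0, c1, c2, hc1, hG, H⟩ := exists_growth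
  obtain ⟨K0, hK0⟩ := exists_nat_ge c2
  obtain ⟨K, hK, hK2⟩ : ∃ K : ℕ, c2 ≤ K ∧ 2 ≤ K :=
    ⟨K0 + 2, by push_cast; linarith, by omega⟩
  have l2 : 0 < Real.log 2 := Real.log_pos one_lt_two
  obtain ⟨L0, hL0⟩ := exists_nat_ge ((K + 1) / (c1 * Real.log 2))
  obtain ⟨L, hL, hL1⟩ : ∃ L : ℕ, (K + 1) ≤ L * (c1 * Real.log 2) ∧ 1 ≤ L := by
    refine ⟨L0 + 1, ?_, by omega⟩
    rw [div_le_iff₀ (by positivity)] at hL0
    push_cast
    nlinarith [mul_pos hc1 l2]
  -- basic size facts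
  have hsz : ∀ a, 3 ≤ a → 2 * a + 1 < a ^ K := by
    intro a ha
    calc 2 * a + 1 < a ^ 2 := by nlinarith
      _ ≤ a ^ K := Nat.pow_le_pow_right (by omega) hK2
  have idx : ∀ a, 3 ≤ a → y0 ≤ a → ∀ (hb : 1 < a ^ K) j, yn hb j ≤ G a → 2 ^ j ≤ 2 * a := by
    intro a ha hy hb j hj
    cases j with
    | zero => omega
    | succ j =>
      have h1 : (a ^ K) ^ j ≤ G a := by
        have := xn_ge_a_pow hb j
        rw [yn_succ] at hj
        omega
      obtain ⟨-, -, h2⟩ := H a hy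
      have la : 0 < Real.log a := Real.log_pos (by exact_mod_cast (by omega : 1 < a))
      have h3 : Real.log (((a ^ K) ^ j : ℕ) : ℝ) ≤ Real.log (G a) :=
        Real.log_le_log (by positivity) (by exact_mod_cast h1)
      push_cast at h3
      rw [Real.log_pow, Real.log_pow] at h3
      have hK' : (0 : ℝ) < K := by positivity
      have h4 : (j : ℝ) ≤ Real.log a := by
        by_contra hc
        push Not at hc
        have : (K : ℝ) * Real.log a * Real.log a < j * (K * Real.log a) := by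
          nlinarith [mul_pos hK' la]
        nlinarith [mul_pos la la]
      have h5 : (2 : ℝ) ^ j ≤ a := by
        rw [← Real.log_le_log_iff (by positivity) (by positivity), Real.log_pow]
        have : Real.log 2 ≤ 1 := by
          have := Real.log_two_lt_d9
          linarith
        nlinarith [(Nat.cast_nonneg j : (0 : ℝ) ≤ j)]
      have h6 : 2 ^ j ≤ a := by exact_mod_cast h5
      omega
  let P : ℕ → ℕ → ℕ → ℕ → ℕ → ℕ → Prop := fun m n b g X Y =>
    X * X = (b * b - 1) * Y * Y + 1 ∧ Y ≤ g ∧ Y % (b - 1) = n ∧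
      X % (4 * b - 5) = (m + (b - 2) * Y) % (4 * b - 5)
  have ha3 : ∀ m, m + (y0 + 3) ≤ (m + (y0 + 3)) ^ L := fun m => Nat.le_self_pow (by omega) _
  have sound : ∀ m n X Y, P m n (((m + (y0 + 3)) ^ L) ^ K) (G ((m + (y0 + 3)) ^ L)) X Y →
      ∃ hb : 1 < ((m + (y0 + 3)) ^ L) ^ K, X = xn hb n ∧ Y = yn hb n ∧ m = 2 ^ n := by
    intro m n X Y
    have h0 := ha3 m
    generalize (m + (y0 + 3)) ^ L = a at h0
    rintro ⟨h1, h2, h3, h4⟩
    have h5 := hsz a (by omega)
    have hb : 1 < a ^ K := by omega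
    obtain ⟨j, rfl, rfl⟩ := (pell_iff hb X Y).1 h1
    have h6 := idx a (by omega) (by omega) hb j h2
    have h7 : j < 2 ^ j := Nat.lt_two_pow_self
    have h8 : j = n := by
      rw [← h3, yn_modEq_a_sub_one hb j, Nat.mod_eq_of_lt (by omega)]
    subst h8
    refine ⟨hb, rfl, rfl, ?_⟩
    have h9 : m ≡ 2 ^ j [MOD (4 * a ^ K - 5)] :=
      Nat.ModEq.add_right_cancel' _ ((Eq.symm h4).trans (pell_two hb j))
    exact Nat.ModEq.eq_of_lt_of_lt h9 (by omega) (by omega)
  have hSF := SF.exu (γ := Fin 2) (p := fun (v : Fin 2 → ℕ) w =>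
    P (v 0) (v 1) (((v 0 + (y0 + 3)) ^ L) ^ K) (G ((v 0 + (y0 + 3)) ^ L)) (w 0) (w 1)) (by
      have i1 : SFn (fun v : Fin 2 ⊕ Fin 2 → ℕ => (v (Sum.inl 0) + (y0 + 3)) ^ L) :=
        SFn.pow_const L
      have i2 : SFn (fun v : Fin 2 ⊕ Fin 2 → ℕ => ((v (Sum.inl 0) + (y0 + 3)) ^ L) ^ K) :=
        SFn.pow_const K
      have i3 : SFn (fun v : Fin 2 ⊕ Fin 2 → ℕ => G ((v (Sum.inl 0) + (y0 + 3)) ^ L)) :=
        SFn.fn1 hG i1
      exact SF.and (hp := inferInstance) (hq := SF.and (hp := inferInstance)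
        (hq := SF.and (hp := inferInstance) (hq := inferInstance)))) (by
      intro v w w' h h'
      obtain ⟨_, e1, e2, -⟩ := sound _ _ _ _ h
      obtain ⟨_, e3, e4, -⟩ := sound _ _ _ _ h'
      funext i; fin_cases i
      · exact e1.trans e3.symm
      · exact e2.trans e4.symm)
  refine hSF.congr fun v => ⟨fun h => ?_, fun ⟨w, h⟩ => (sound _ _ _ _ h).2.2.2⟩
  have h0 := ha3 (v 0)
  have hla : (L : ℝ) * (v 1 * Real.log 2) ≤ Real.log (((v 0 + (y0 + 3)) ^ L : ℕ) : ℝ) := by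
    push_cast
    rw [Real.log_pow, ← Real.log_pow]
    gcongr
    rw [h]; push_cast
    linarith [(Nat.cast_nonneg y0 : (0 : ℝ) ≤ y0)]
  generalize (v 0 + (y0 + 3)) ^ L = a at h0 hla
  have h5 := hsz a (by omega)
  have hb : 1 < a ^ K := by omega
  have hle : yn hb (v 1) ≤ G a := by
    refine (yn_le_pow hb _).trans ?_
    obtain ⟨h1, h2, -⟩ := H a (by omega)
    have la : Real.log 2 ≤ Real.log a :=
      Real.log_le_log (by norm_num) (by exact_mod_cast (by omega : 2 ≤ a))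
    have ap : (0 : ℝ) < a := by exact_mod_cast (by omega : 0 < a)
    have : (((2 * a ^ K) ^ v 1 : ℕ) : ℝ) ≤ G a := by
      rw [← Real.log_le_log_iff (by positivity) (by positivity)]
      refine le_trans ?_ h2
      push_cast
      rw [Real.log_pow, Real.log_mul (by norm_num) (by positivity), Real.log_pow]
      have hn : (0 : ℝ) ≤ v 1 := Nat.cast_nonneg _
      have h6 : (v 1 : ℝ) * (K + 1) ≤ c1 * Real.log a := by
        calc (v 1 : ℝ) * (K + 1) ≤ v 1 * (L * (c1 * Real.log 2)) := by gcongr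
          _ = c1 * (L * (v 1 * Real.log 2)) := by ring
          _ ≤ c1 * Real.log a := by gcongr
      calc (v 1 : ℝ) * (Real.log 2 + K * Real.log a) ≤ v 1 * (Real.log a + K * Real.log a) := by
            gcongr
        _ = v 1 * (K + 1) * Real.log a := by ring
        _ ≤ c1 * Real.log a * Real.log a := by gcongr
        _ = c1 * Real.log a ^ 2 := by ring
    exact_mod_cast this
  have h6 := idx a (by omega) (by omega) hb _ hle
  have h7 : v 1 < 2 ^ v 1 := Nat.lt_two_pow_self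
  refine ⟨![xn hb (v 1), yn hb (v 1)], (pell_iff hb _ _).2 ⟨v 1, rfl, rfl⟩, hle, ?_, ?_⟩
  · exact Eq.trans (yn_modEq_a_sub_one hb (v 1)) (Nat.mod_eq_of_lt (by omega))
  · rw [h]; exact pell_two hb (v 1)

lemma SFn.two_pow {f : (α → ℕ) → ℕ} (hf : SFn f) : SFn (fun a => 2 ^ f a) :=
  SFn.fn1 (F := fun x => 2 ^ x) SF_two_pow hf

lemma pow_eq_mod (k n : ℕ) :
    k ^ n = 2 ^ ((k * n + k + 1) * n) % (2 ^ (k * n + k + 1) - k) := by
  have h1 : k < 2 ^ k := Nat.lt_two_pow_self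
  have h2 : k ^ n ≤ 2 ^ (k * n) := by
    rw [pow_mul]; exact Nat.pow_le_pow_left h1.le n
  have h3 : k ^ n + k < 2 ^ (k * n + k + 1) := by
    have p1 : 1 ≤ 2 ^ (k * n) := Nat.one_le_two_pow
    have p2 : 1 ≤ 2 ^ k := Nat.one_le_two_pow
    rw [pow_succ, pow_add]
    nlinarith
  rw [pow_mul]
  generalize 2 ^ (k * n + k + 1) = N at h3
  have h4 : N ≡ k [MOD N - k] := by
    have := (Nat.modEq_iff_dvd' (show k ≤ N by omega)).2 (dvd_refl (N - k))
    exact this.symm
  rw [h4.pow n, Nat.mod_eq_of_lt (by omega)]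

instance SFn.pow {f g : (α → ℕ) → ℕ} [hf : SFn f] [hg : SFn g] : SFn (fun a => f a ^ g a) := by
  have i1 : SFn (fun a => 2 ^ ((f a * g a + f a + 1) * g a)) := SFn.two_pow inferInstance
  have i2 : SFn (fun a => 2 ^ (f a * g a + f a + 1)) := SFn.two_pow inferInstance
  exact (inferInstance : SFn (fun a => 2 ^ ((f a * g a + f a + 1) * g a) %
    (2 ^ (f a * g a + f a + 1) - f a))).congr fun a => pow_eq_mod _ _

end Vale.Agent.P345
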