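import Vale.Agent.P345.Ball

/-!
Primitive recursive functions and recursively enumerable sets are single-fold Diophantine.
-/

namespace Vale.Agent.P345

variable {α γ : Type}

open Finset

/-- Predicates that are single-fold Diophantine together with their negation. -/
structure DF (p : (α → ℕ) → Prop) : Prop where
  pos : SF p
  neg : SF (fun a => ¬ p a)

lemma DF.congr {p q : (α → ℕ) → Prop} (h : DF p) (e : ∀ a, q a ↔ p a) : DF q := by
  rw [show q = p from funext fun a => propext (e a)]; exact h

lemma DF.eq {f g : (α → ℕ) → ℕ} (hf : SFn f) (hg : SFn g) : DF (fun a => f a = g a) :=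
  ⟨inferInstance, SF.ne⟩

lemma DF.lt {f g : (α → ℕ) → ℕ} (hf : SFn f) (hg : SFn g) : DF (fun a => f a < g a) :=
  ⟨inferInstance, (inferInstance : SF (fun a => g a ≤ f a)).congr fun _ => not_lt⟩

lemma DF.not {p : (α → ℕ) → Prop} (hp : DF p) : DF (fun a => ¬ p a) :=
  ⟨hp.neg, hp.pos.congr fun _ => not_not⟩

lemma DF.and {p q : (α → ℕ) → Prop} (hp : DF p) (hq : DF q) : DF (fun a => p a ∧ q a) :=
  ⟨SF.and (hp := hp.pos) (hq := hq.pos),
    (SF.or hp.neg (SF.and (hp := hp.pos) (hq := hq.neg)) fun _ h1 h2 => h1 h2.1).congr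
      fun _ => by tauto⟩

lemma SF.ex_dec [Finite α] {p : (α → ℕ) → ℕ → Prop}
    (h : DF (fun v : Option α → ℕ => p (fun i => v (some i)) (v none))) :
    SF (fun a => ∃ x, p a x) := by
  classical
  have h1 : SF (fun v : Option α → ℕ => ∀ y < v none, ¬ p (fun i => v (some i)) y) :=
    SF.ball (p := fun (v : Option α → ℕ) y => ¬ p (fun i => v (some i)) y)
      (h.neg.comap (Option.map some)) (SFn.var none)
  have h2 := SF.ex1 (p := fun a x => p a x ∧ ∀ y < x, ¬ p a y)
    (SF.and (hp := h.pos) (hq := h1)) (by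
      rintro a x x' ⟨h1, h2⟩ ⟨h3, h4⟩
      rcases lt_trichotomy x x' with h | h | h
      · exact absurd h1 (h4 x h)
      · exact h
      · exact absurd h3 (h2 x' h))
  exact h2.congr fun a => ⟨fun h => ⟨Nat.find h, Nat.find_spec h, fun y hy => Nat.find_min h hy⟩,
    fun ⟨x, hx, _⟩ => ⟨x, hx⟩⟩

lemma DF.ball [Finite α] {p : (α → ℕ) → ℕ → Prop}
    (h : DF (fun v : Option α → ℕ => p (fun i => v (some i)) (v none)))
    {n : (α → ℕ) → ℕ} (hn : SFn n) : DF (fun a => ∀ i < n a, p a i) :=
  ⟨SF.ball h.pos hn, (SF.ex_dec (p := fun a i => i < n a ∧ ¬ p a i)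
    ((DF.lt (SFn.var none) (hn.comap some)).and h.not)).congr fun a => by push Not; rfl⟩

lemma DF.bex [Finite α] {p : (α → ℕ) → ℕ → Prop}
    (h : DF (fun v : Option α → ℕ => p (fun i => v (some i)) (v none)))
    {n : (α → ℕ) → ℕ} (hn : SFn n) : DF (fun a => ∃ i < n a, p a i) :=
  (DF.ball (p := fun a i => ¬ p a i) h.not hn).not.congr fun a => by push Not; rfl

/-- Coding of a primitive recursion by digits. -/
def Phi (f : ℕ) (g : ℕ → ℕ → ℕ) (n r B c : ℕ) : Prop :=
  c / B ^ 0 % B = f ∧ (∀ i < n, c / B ^ (i + 1) % B = g i (c / B ^ i % B)) ∧ r = c / B ^ n % B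

lemma Phi_iff (f : ℕ) (g : ℕ → ℕ → ℕ) (n r : ℕ) :
    r = Nat.rec f g n ↔ ∃ x, ∃ B < x + 1, Phi f g n r B (x - B) := by
  constructor
  · rintro rfl
    let v : ℕ → ℕ := fun i => Nat.rec f g i
    let B := (range (n + 1)).sup v + 1
    have hB : ∀ j, j < n + 1 → v j < B := fun j hj =>
      Nat.lt_succ_of_le (le_sup (f := v) (mem_range.2 hj))
    have hd := fun k => digit_sum (X := B) k (n + 1) v hB
    refine ⟨∑ j ∈ range (n + 1), v j * B ^ j + B, B, by omega, ?_⟩
    rw [Nat.add_sub_cancel]
    refine ⟨hd 0 (by omega), fun i hi => ?_, (hd n (by omega)).symm⟩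
    rw [hd i (by omega), hd (i + 1) (by omega)]
  · rintro ⟨x, B, -, h1, h2, h3⟩
    have : ∀ i ≤ n, (x - B) / B ^ i % B = Nat.rec f g i := by
      intro i
      induction i with
      | zero => exact fun _ => h1
      | succ i ih => intro hi; rw [h2 i hi, ih (by omega)]
    rw [h3, this n le_rfl]

lemma SFn.natRec [Finite α] {f n : (α → ℕ) → ℕ} {g : (α → ℕ) → ℕ → ℕ → ℕ}
    (hf : SFn f) (hn : SFn n)
    (hg : ∀ (γ : Type) (e : α → γ) (x y : (γ → ℕ) → ℕ), SFn x → SFn y →
      SFn (fun u => g (fun i => u (e i)) (x u) (y u))) :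
    SFn (fun a => Nat.rec (f a) (g a) (n a)) := by
  have key : ∀ (γ : Type) [Finite γ] (e : α → γ) (r B c : (γ → ℕ) → ℕ), SFn r → SFn B → SFn c →
      DF (fun u => Phi (f fun i => u (e i)) (g fun i => u (e i)) (n fun i => u (e i))
        (r u) (B u) (c u)) := by
    intro γ _ e r B c hr hB hc
    have i1 := hn.comap e
    have i2 := hB.comap some
    have i3 := hc.comap some
    refine (DF.eq inferInstance (hf.comap e)).and (DF.and ?_ (DF.eq hr inferInstance))
    exact DF.ball (p := fun u i => c u / B u ^ (i + 1) % B u =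
      g (fun i => u (e i)) i (c u / B u ^ i % B u))
      (DF.eq inferInstance (hg _ (fun i => some (e i)) _ _ inferInstance inferInstance)) i1
  refine ⟨(SF.ex_dec (p := fun (v : Option α → ℕ) x => ∃ B < x + 1, Phi (f fun i => v (some i))
    (g fun i => v (some i)) (n fun i => v (some i)) (v none) B (x - B)) ?_).congr
    fun v => Phi_iff _ _ _ _⟩
  exact DF.bex (p := fun (u : Option (Option α) → ℕ) B => Phi (f fun i => u (some (some i)))
    (g fun i => u (some (some i))) (n fun i => u (some (some i))) (u (some none)) B (u none - B))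
    (key _ (fun i => some (some (some i))) _ _ _ inferInstance inferInstance inferInstance)
    inferInstance

theorem SFn_of_prim {n : ℕ} {f : List.Vector ℕ n → ℕ} (h : Nat.Primrec' f) :
    SFn (fun a : Fin n → ℕ => f (List.Vector.ofFn a)) := by
  induction h with
  | zero => exact SFn.const 0
  | succ => exact (inferInstance : SFn (fun a : Fin 1 → ℕ => a 0 + 1)).congr fun a => by simp
  | get i => exact (SFn.var i).congr fun a => by simp
  | comp g _ _ hf hg => exact hf.subst hg
  | @prec n f g _ _ hf hg =>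
    have := SFn.natRec (α := Fin (n + 1)) (hf.comap Fin.succ) (SFn.var 0)
      (g := fun a y z => g (List.Vector.ofFn (Fin.cons y (Fin.cons z fun i => a i.succ))))
      (fun γ e x y hx hy => (hg.subst (F := fun i u =>
        (Fin.cons (x u) (Fin.cons (y u) fun i : Fin n => u (e i.succ)) : Fin (n + 2) → ℕ) i)
        (fun i => by
          refine Fin.cases hx (fun i => Fin.cases hy (fun i => ?_) i) i
          exact SFn.var (e i.succ))))
    refine this.congr fun a => ?_
    simp only [List.Vector.head_ofFn, List.Vector.tail_ofFn]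
    rfl

theorem SF_of_re {n : ℕ} {p : (Fin n → ℕ) → Prop} (h : REPred p) : SF p := by
  obtain ⟨c, hc⟩ := Nat.Partrec.Code.exists_code.1 h
  let enc : (Fin n → ℕ) → ℕ := @Encodable.encode _ Primcodable.toEncodable
  let F : List.Vector ℕ (n + 1) → ℕ := fun v =>
    Encodable.encode (Nat.Partrec.Code.evaln v.head c (enc v.tail.get))
  have hF : Primrec F :=
    (Primrec.encode.comp (Nat.Partrec.Code.primrec_evaln.comp
      ((Primrec.vector_head.pair (Primrec.const c)).pair
        (Primrec.encode.comp (Primrec.vector_get'.comp Primrec.vector_tail))))).of_eq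
      fun _ => rfl
  have h1 := SFn_of_prim (Nat.Primrec'.of_prim hF)
  have h2 := h1.comap (fun i : Fin (n + 1) => (Fin.cases none some i : Option (Fin n)))
  have h3 := SF.ex_dec (p := fun (a : Fin n → ℕ) k =>
      0 < Encodable.encode (Nat.Partrec.Code.evaln k c (enc a)))
    (DF.lt (SFn.const 0) (h2.congr fun v => by
      simp only [F, List.Vector.head_ofFn, List.Vector.tail_ofFn]
      congr 3
      funext i
      simp))
  refine h3.congr fun a => ?_
  have e : p a ↔ ∃ x, x ∈ c.eval (enc a) := by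
    rw [hc]
    simp [enc, Part.mem_assert_iff]
  rw [e]
  simp only [Nat.Partrec.Code.evaln_complete]
  rw [exists_comm]
  refine exists_congr fun k => ?_
  cases Nat.Partrec.Code.evaln k c (enc a) <;> simp

end Vale.Agent.P345
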