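import Vale.Agent.P345.SF
import Vale.Agent.P345.Descent

/-!
Single-fold Diophantine handling of rational numbers, and a single-fold function
of quasi-polynomial growth.
-/

namespace Vale.Agent.P345

variable {α : Type}

instance SF.coprime {f g : (α → ℕ) → ℕ} [hf : SFn f] [hg : SFn g] :
    SF (fun a => Nat.Coprime (f a) (g a)) := by
  refine SF.rel2 (R := Nat.Coprime) ?_ hf hg
  have h1 : SF (fun a : Fin 2 → ℕ => ∃ s, s < a 1 ∧ (a 0 * s) % a 1 = 1 % a 1) := by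
    refine SF.ex1 (p := fun (a : Fin 2 → ℕ) s => s < a 1 ∧ (a 0 * s) % a 1 = 1 % a 1)
      inferInstance ?_
    rintro a s s' ⟨h1, h2⟩ ⟨h3, h4⟩
    have e : s ≡ s' [MOD a 1] := by
      calc s = s * 1 := (mul_one _).symm
        _ ≡ s * (a 0 * s') [MOD a 1] := Nat.ModEq.mul_left _ (Eq.symm h4)
        _ = s' * (a 0 * s) := by ring
        _ ≡ s' * 1 [MOD a 1] := Nat.ModEq.mul_left _ h2
        _ = s' := mul_one _
    exact Nat.ModEq.eq_of_lt_of_lt e h1 h3
  refine (SF.or (inferInstance : SF (fun v : Fin 2 → ℕ => v 1 = 0 ∧ v 0 = 1)) h1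
    (fun a h1 ⟨s, h2, _⟩ => by omega)).congr fun a => ?_
  rcases Nat.eq_zero_or_pos (a 1) with h | h
  · simp [h]
  · constructor
    · intro hc
      obtain ⟨m, hm, e⟩ := Nat.exists_mul_mod_eq_of_coprime 1 hc h.ne'
      exact Or.inr ⟨m, hm, e⟩
    · rintro (⟨h1, -⟩ | ⟨s, -, e⟩)
      · omega
      · exact Nat.coprime_of_mul_modEq_one s e

instance SFn.gcd {f g : (α → ℕ) → ℕ} [hf : SFn f] [hg : SFn g] :
    SFn (fun a => Nat.gcd (f a) (g a)) := by
  refine SFn.fn2 (F := Nat.gcd) ?_ hf hg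
  refine (SF.or (inferInstance : SF (fun v : Fin 3 → ℕ => v 0 = 0 ∧ v 1 = 0 ∧ v 2 = 0))
    (inferInstance : SF (fun v : Fin 3 → ℕ => 0 < v 0 ∧ v 1 % v 0 = 0 ∧ v 2 % v 0 = 0 ∧
      Nat.Coprime (v 1 / v 0) (v 2 / v 0)))
    (fun a h1 h2 => by omega)).congr fun a => ?_
  constructor
  · intro h
    rcases Nat.eq_zero_or_pos (a 0) with h0 | h0
    · left
      rw [h0, eq_comm, Nat.gcd_eq_zero_iff] at h
      exact ⟨h0, h⟩
    · right
      rw [h] at h0 ⊢
      exact ⟨h0, Nat.mod_eq_zero_of_dvd (Nat.gcd_dvd_left _ _),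
        Nat.mod_eq_zero_of_dvd (Nat.gcd_dvd_right _ _), Nat.coprime_div_gcd_div_gcd h0⟩
  · rintro (⟨h0, h1, h2⟩ | ⟨h0, h1, h2, h3⟩)
    · simp [h0, h1, h2]
    · obtain ⟨x, hx⟩ := Nat.dvd_of_mod_eq_zero h1
      obtain ⟨y, hy⟩ := Nat.dvd_of_mod_eq_zero h2
      rw [hx, hy, Nat.mul_div_cancel_left _ h0, Nat.mul_div_cancel_left _ h0] at h3
      rw [hx, hy, Nat.gcd_mul_left, h3, mul_one]

/-- Rational-valued functions that are quotients of single-fold functions. -/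
class SQ (f : (α → ℕ) → ℚ) : Prop where
  out : ∃ A B D : (α → ℕ) → ℕ, SFn A ∧ SFn B ∧ SFn D ∧
    ∀ a, 0 < D a ∧ f a = ((A a : ℚ) - B a) / D a

lemma SQ.congr {f g : (α → ℕ) → ℚ} (h : SQ f) (e : ∀ a, g a = f a) : SQ g := by
  rw [show g = f from funext e]; exact h

section inst
variable {f g : (α → ℕ) → ℚ}

instance SQ.natCast {f : (α → ℕ) → ℕ} [hf : SFn f] : SQ (fun a => (f a : ℚ)) :=
  ⟨f, fun _ => 0, fun _ => 1, hf, inferInstance, inferInstance, fun a => by simp⟩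

instance SQ.const (c : ℚ) : SQ (fun _ : α → ℕ => c) :=
  ⟨fun _ => c.num.toNat, fun _ => (-c.num).toNat, fun _ => c.den, inferInstance, inferInstance,
    inferInstance, fun _ => ⟨c.den_pos, by
      have : ((c.num.toNat : ℤ) : ℚ) - (((-c.num).toNat : ℤ) : ℚ) = c.num := by
        rw [← Int.cast_sub, Int.toNat_sub_toNat_neg]
      simp only [Int.cast_natCast] at this
      rw [this, Rat.num_div_den]⟩⟩

instance SQ.add [hf : SQ f] [hg : SQ g] : SQ (fun a => f a + g a) := by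
  obtain ⟨A, B, D, _, _, _, H⟩ := hf
  obtain ⟨A', B', D', _, _, _, H'⟩ := hg
  refine ⟨fun a => A a * D' a + A' a * D a, fun a => B a * D' a + B' a * D a,
    fun a => D a * D' a, inferInstance, inferInstance, inferInstance, fun a => ?_⟩
  obtain ⟨h1, h2⟩ := H a
  obtain ⟨h3, h4⟩ := H' a
  refine ⟨Nat.mul_pos h1 h3, ?_⟩
  have : (D a : ℚ) ≠ 0 := by positivity
  have : (D' a : ℚ) ≠ 0 := by positivity
  rw [h2, h4]; push_cast; field_simp; ring

instance SQ.mul [hf : SQ f] [hg : SQ g] : SQ (fun a => f a * g a) := by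
  obtain ⟨A, B, D, _, _, _, H⟩ := hf
  obtain ⟨A', B', D', _, _, _, H'⟩ := hg
  refine ⟨fun a => A a * A' a + B a * B' a, fun a => A a * B' a + B a * A' a,
    fun a => D a * D' a, inferInstance, inferInstance, inferInstance, fun a => ?_⟩
  obtain ⟨h1, h2⟩ := H a
  obtain ⟨h3, h4⟩ := H' a
  refine ⟨Nat.mul_pos h1 h3, ?_⟩
  have : (D a : ℚ) ≠ 0 := by positivity
  have : (D' a : ℚ) ≠ 0 := by positivity
  rw [h2, h4]; push_cast; field_simp; ring

instance SQ.sub [hf : SQ f] [hg : SQ g] : SQ (fun a => f a - g a) :=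
  (inferInstance : SQ (fun a => f a + (-1) * g a)).congr fun a => by ring

instance SQ.inv [hf : SQ f] : SQ (fun a => (f a)⁻¹) := by
  obtain ⟨A, B, D, _, _, _, H⟩ := hf
  refine ⟨fun a => D a * A a, fun a => D a * B a,
    fun a => max 1 ((A a - B a + (B a - A a)) * (A a - B a + (B a - A a))),
    inferInstance, inferInstance, inferInstance, fun a => ?_⟩
  obtain ⟨h1, h2⟩ := H a
  beta_reduce
  refine ⟨by omega, ?_⟩
  have : (D a : ℚ) ≠ 0 := by positivity
  rw [h2]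
  rcases lt_trichotomy (A a) (B a) with h | h | h
  · obtain ⟨k, hk⟩ := Nat.exists_eq_add_of_lt h
    have e : A a - B a + (B a - A a) = k + 1 := by omega
    rw [e, max_eq_right (by nlinarith), hk]; push_cast
    rw [← mul_sub, show (A a : ℚ) - (A a + k + 1) = -(k + 1) by ring]; field_simp
  · simp [h]
  · obtain ⟨k, hk⟩ := Nat.exists_eq_add_of_lt h
    have e : A a - B a + (B a - A a) = k + 1 := by omega
    rw [e, max_eq_right (by nlinarith), hk]; push_cast
    rw [← mul_sub, show (B a + k + 1 : ℚ) - B a = k + 1 by ring]; field_simp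

instance SQ.div [hf : SQ f] [hg : SQ g] : SQ (fun a => f a / g a) :=
  (inferInstance : SQ (fun a => f a * (g a)⁻¹)).congr fun a => div_eq_mul_inv _ _

instance SQ.pow [hf : SQ f] (k : ℕ) : SQ (fun a => f a ^ k) := by
  induction k with
  | zero => exact (SQ.const 1).congr fun a => pow_zero _
  | succ k ih => exact (SQ.mul (hf := ih) (hg := hf)).congr fun a => pow_succ _ _

lemma rat_parts (A B D : ℕ) (hD : 0 < D) :
    (((A : ℚ) - B) / D).num.toNat = (A - B) / Nat.gcd D (A - B + (B - A)) ∧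
    (-(((A : ℚ) - B) / D).num).toNat = (B - A) / Nat.gcd D (A - B + (B - A)) ∧
    (((A : ℚ) - B) / D).den = D / Nat.gcd D (A - B + (B - A)) := by
  have e : ((A : ℚ) - B) / D = mkRat ((A : ℤ) - B) D := by
    rw [Rat.mkRat_eq_div]; push_cast; rfl
  have e2 : ((A : ℤ) - B).natAbs = A - B + (B - A) := by omega
  rw [e, Rat.num_mkRat, Rat.den_mkRat, if_neg hD.ne', if_neg hD.ne', e2]
  have hg : 0 < Nat.gcd D (A - B + (B - A)) := Nat.gcd_pos_of_pos_left _ hD
  have hd := Nat.gcd_dvd_right D (A - B + (B - A))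
  generalize Nat.gcd D (A - B + (B - A)) = g at hg hd
  obtain ⟨k, hk⟩ := hd
  rcases le_total A B with h | h
  · have e3 : (A : ℤ) - B = g * (-k) := by
      have : ((A - B + (B - A) : ℕ) : ℤ) = g * k := by exact_mod_cast hk
      rw [mul_neg, ← this]; omega
    have e4 : B - A = g * k := by omega
    rw [e3, Int.mul_ediv_cancel_left _ (by omega), e4, Nat.mul_div_cancel_left _ hg,
      Nat.sub_eq_zero_of_le h]
    simp
  · have e3 : (A : ℤ) - B = g * k := by
      have : ((A - B + (B - A) : ℕ) : ℤ) = g * k := by exact_mod_cast hk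
      rw [← this]; omega
    have e4 : A - B = g * k := by omega
    rw [e3, Int.mul_ediv_cancel_left _ (by omega), e4, Nat.mul_div_cancel_left _ hg,
      Nat.sub_eq_zero_of_le h]
    simp

instance SFn.numPos [hf : SQ f] : SFn (fun a => (f a).num.toNat) := by
  obtain ⟨A, B, D, _, _, _, H⟩ := hf
  exact (inferInstance : SFn (fun a => (A a - B a) /
    Nat.gcd (D a) (A a - B a + (B a - A a)))).congr fun a => by
      rw [(H a).2]; exact (rat_parts _ _ _ (H a).1).1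

instance SFn.numNeg [hf : SQ f] : SFn (fun a => (-(f a).num).toNat) := by
  obtain ⟨A, B, D, _, _, _, H⟩ := hf
  exact (inferInstance : SFn (fun a => (B a - A a) /
    Nat.gcd (D a) (A a - B a + (B a - A a)))).congr fun a => by
      rw [(H a).2]; exact (rat_parts _ _ _ (H a).1).2.1

instance SFn.den [hf : SQ f] : SFn (fun a => (f a).den) := by
  obtain ⟨A, B, D, _, _, _, H⟩ := hf
  exact (inferInstance : SFn (fun a => D a /
    Nat.gcd (D a) (A a - B a + (B a - A a)))).congr fun a => by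
      rw [(H a).2]; exact (rat_parts _ _ _ (H a).1).2.2

instance SFn.Hq [hf : SQ f] : SFn (fun a => Hq (f a)) :=
  (inferInstance : SFn (fun a => Max.max ((f a).num.toNat + (-(f a).num).toNat) (f a).den)).congr
    fun a => by unfold P345.Hq; congr 1; omega

instance SF.eqQ [hf : SQ f] [hg : SQ g] : SF (fun a => f a = g a) :=
  (inferInstance : SF (fun a => (f a - g a).num.toNat + (-(f a - g a).num).toNat = 0)).congr
    fun a => by rw [← sub_eq_zero, ← Rat.num_eq_zero]; omega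

instance SF.neQ [hf : SQ f] [hg : SQ g] : SF (fun a => f a ≠ g a) :=
  (inferInstance : SF (fun a => (f a - g a).num.toNat + (-(f a - g a).num).toNat ≠ 0)).congr
    fun a => by rw [ne_eq, ← sub_eq_zero, ← Rat.num_eq_zero]; omega

end inst

/-- A polynomial pairing function. -/
def pr (a b : ℕ) : ℕ := (a + b) * (a + b) + a

lemma pr_inj {a b c d : ℕ} (h : pr a b = pr c d) : a = c ∧ b = d := by
  unfold pr at h
  have : a + b = c + d := by
    rcases lt_trichotomy (a + b) (c + d) with h1 | h1 | h1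
    · nlinarith [Nat.mul_self_le_mul_self (show a + b + 1 ≤ c + d from h1)]
    · exact h1
    · nlinarith [Nat.mul_self_le_mul_self (show c + d + 1 ≤ a + b from h1)]
  rw [this] at h
  omega

instance SFn.pr {f g : (α → ℕ) → ℕ} [SFn f] [SFn g] : SFn (fun a => pr (f a) (g a)) :=
  (inferInstance : SFn (fun a => (f a + g a) * (f a + g a) + f a)).congr fun _ => rfl

/-- Code of a rational number. -/
def encQ (q : ℚ) : ℕ := pr q.num.toNat (pr (-q.num).toNat q.den)

instance SFn.encQ {f : (α → ℕ) → ℚ} [SQ f] : SFn (fun a => encQ (f a)) :=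
  (inferInstance : SFn (fun a => P345.pr (f a).num.toNat (P345.pr (-(f a).num).toNat (f a).den))).congr
    fun _ => rfl

lemma encQ_inj {q r : ℚ} (h : encQ q = encQ r) : q = r := by
  obtain ⟨h1, h2⟩ := pr_inj h
  obtain ⟨h2, h3⟩ := pr_inj h2
  exact Rat.ext (by omega) h3

lemma rat_dec (q : ℚ) : ((q.num.toNat : ℚ) - ((-q.num).toNat : ℚ)) / (q.den : ℚ) = q := by
  have : ((q.num.toNat : ℤ) : ℚ) - (((-q.num).toNat : ℤ) : ℚ) = q.num := by
    rw [← Int.cast_sub, Int.toNat_sub_toNat_neg]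
  simp only [Int.cast_natCast] at this
  rw [this, Rat.num_div_den]

lemma SF_Sig (xS yS : ℚ) {x z : (α → ℕ) → ℚ} {y : (α → ℕ) → ℕ} [SQ x] [SQ z] [SFn y] :
    SF (fun v => (x v, z v) ∈ Sig xS yS (y v)) := by
  simp only [Sig, Set.mem_ofPred_eq]
  exact SF.and (hp := inferInstance) (hq := SF.and (hp := inferInstance)
    (hq := SF.and (hp := inferInstance) (hq := inferInstance)))

lemma SF_pt (xS yS : ℚ) : SF (fun v : Fin 3 → ℕ => ∃ p ∈ Sig xS yS (v 0),
    v 1 = pr (encQ p.1) (encQ p.2) ∧ v 2 = Hq p.1) := by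
  have h := SF.exu (γ := Fin 6) (p := fun (v : Fin 3 → ℕ) w =>
    ((((w 0 : ℚ) - w 1) / w 2, ((w 3 : ℚ) - w 4) / w 5) ∈ Sig xS yS (v 0) ∧
      v 1 = pr (encQ (((w 0 : ℚ) - w 1) / w 2)) (encQ (((w 3 : ℚ) - w 4) / w 5)) ∧
      v 2 = Hq (((w 0 : ℚ) - w 1) / w 2)) ∧
      v 1 = pr (pr (w 0) (pr (w 1) (w 2))) (pr (w 3) (pr (w 4) (w 5))))
    (SF.and (hp := SF.and (hp := SF_Sig xS yS) (hq := SF.and (hp := inferInstance)
      (hq := inferInstance))) (hq := inferInstance))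
    (by
      rintro v w w' ⟨-, h1⟩ ⟨-, h2⟩
      obtain ⟨h3, h4⟩ := pr_inj (h1.symm.trans h2)
      obtain ⟨e0, h3⟩ := pr_inj h3
      obtain ⟨e1, e2⟩ := pr_inj h3
      obtain ⟨e3, h4⟩ := pr_inj h4
      obtain ⟨e4, e5⟩ := pr_inj h4
      funext i; fin_cases i <;> assumption)
  refine h.congr fun v => ⟨?_, fun ⟨w, h1, _⟩ => ⟨_, h1⟩⟩
  rintro ⟨p, h1, h2, h3⟩
  refine ⟨![p.1.num.toNat, (-p.1.num).toNat, p.1.den, p.2.num.toNat, (-p.2.num).toNat, p.2.den],
    ?_, h2⟩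
  simp only [Matrix.cons_val, rat_dec]
  exact ⟨h1, h2, h3⟩

theorem exists_growth : ∃ (G : ℕ → ℕ) (y0 : ℕ) (c1 c2 : ℝ), 0 < c1 ∧
    SF (fun v : Fin 2 → ℕ => v 0 = G (v 1)) ∧
    ∀ y, y0 ≤ y → 0 < G y ∧ c1 * Real.log y ^ 2 ≤ Real.log (G y) ∧
      Real.log (G y) ≤ c2 * Real.log y ^ 2 := by
  classical
  obtain ⟨xS, yS, I, y0, c1, c2, hI, hc1, H⟩ := curve_main
  let R : ℕ → ℕ → ℕ → Prop := fun y c g => ∃ p ∈ Sig xS yS y,
    c = pr (encQ p.1) (encQ p.2) ∧ g = Hq p.1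
  have hR : SF (fun v : Fin 3 → ℕ => R (v 0) (v 1) (v 2)) := SF_pt xS yS
  have inj : Function.Injective (fun p : ℚ × ℚ => pr (encQ p.1) (encQ p.2)) := by
    intro p q h
    obtain ⟨h1, h2⟩ := pr_inj h
    exact Prod.ext (encQ_inj h1) (encQ_inj h2)
  have Ru : ∀ y c g g', R y c g → R y c g' → g = g' := by
    rintro y c g g' ⟨p, -, h1, rfl⟩ ⟨q, -, h2, rfl⟩
    rw [inj (h1.symm.trans h2)]
  have hT : SF (fun v : Fin 2 → ℕ => ∃ g, R (v 0) (v 1) g) :=
    SF.ex1 (p := fun (v : Fin 2 → ℕ) g => R (v 0) (v 1) g)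
      (SF.rel3 hR inferInstance inferInstance inferInstance) (fun v => Ru _ _)
  have hfin : ∀ y, y0 ≤ y → ∃ s : Finset ℕ, s.card = I ∧ ∀ c, c ∈ s ↔ ∃ g, R y c g := by
    intro y hy
    have h1 := (H y hy).1
    have h2 : (Sig xS yS y).Finite := Set.finite_of_ncard_pos (by omega)
    refine ⟨h2.toFinset.image (fun p : ℚ × ℚ => pr (encQ p.1) (encQ p.2)), ?_, fun c => ?_⟩
    · rw [Finset.card_image_of_injective _ inj, ← h1, Set.ncard_eq_toFinset_card _ h2]
    · simp only [Finset.mem_image, Set.Finite.mem_toFinset]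
      exact ⟨fun ⟨p, h, e⟩ => ⟨_, p, h, e.symm, rfl⟩, fun ⟨_, p, h, e, _⟩ => ⟨p, h, e.symm⟩⟩
  let Q : ℕ → ℕ → (Fin I → ℕ) → Prop := fun y g c => y0 ≤ y ∧ StrictMono c ∧
    (∀ i, ∃ g, R y (c i) g) ∧ R y (c ⟨0, hI⟩) g
  have Qu : ∀ y g g' c c', Q y g c → Q y g' c' → c = c' := by
    rintro y g g' c c' ⟨hy, h1, h2, -⟩ ⟨-, h3, h4, -⟩
    obtain ⟨s, hs, hm⟩ := hfin y hy
    rw [Finset.orderEmbOfFin_unique hs (fun i => (hm _).2 (h2 i)) h1,
      Finset.orderEmbOfFin_unique hs (fun i => (hm _).2 (h4 i)) h3]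
  have Qe : ∀ y, ∃ g, y0 ≤ y → ∃ c, Q y g c := by
    intro y
    by_cases hy : y0 ≤ y
    · obtain ⟨s, hs, hm⟩ := hfin y hy
      have h2 := fun i => (hm _).1 (Finset.orderEmbOfFin_mem s hs i)
      obtain ⟨g, hg⟩ := h2 ⟨0, hI⟩
      exact ⟨g, fun _ => ⟨_, hy, (s.orderEmbOfFin hs).strictMono, h2, hg⟩⟩
    · exact ⟨0, fun h => absurd h hy⟩
  choose G hG using Qe
  have hQ : SF (fun v : Fin 2 → ℕ => ∃ c, Q (v 1) (v 0) c) := by
    refine SF.exu (p := fun (v : Fin 2 → ℕ) c => Q (v 1) (v 0) c) ?_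
      (fun v c c' => Qu _ _ _ _ _)
    refine SF.and (hp := inferInstance) (hq := SF.and (hp := ?_) (hq := SF.and (hp := ?_)
      (hq := SF.rel3 hR inferInstance inferInstance inferInstance)))
    · refine (SF.all (ι := {p : Fin I × Fin I // p.1 < p.2})
        (p := fun p v => v (Sum.inr p.1.1) < v (Sum.inr p.1.2)) fun p => inferInstance).congr
        fun v => ⟨fun h p => h p.2, fun h i j hij => h ⟨(i, j), hij⟩⟩
    · exact SF.all fun i => SF.rel2 (R := fun y c => ∃ g, R y c g) hT inferInstance inferInstance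
  refine ⟨fun y => if y0 ≤ y then G y else 0, y0, c1, c2, hc1, ?_, fun y hy => ?_⟩
  · refine (SF.or (inferInstance : SF (fun v : Fin 2 → ℕ => v 1 < y0 ∧ v 0 = 0)) hQ
      (fun v h1 ⟨c, h2⟩ => absurd h2.1 (by omega))).congr fun v => ?_
    beta_reduce
    split_ifs with hy
    · obtain ⟨c, hc⟩ := hG _ hy
      refine ⟨fun h => Or.inr ⟨c, h ▸ hc⟩, ?_⟩
      rintro (h | ⟨c', hc'⟩)
      · omega
      · obtain rfl := Qu _ _ _ _ _ hc hc'
        exact Ru _ _ _ _ hc'.2.2.2 hc.2.2.2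
    · refine ⟨fun h => Or.inl ⟨by omega, h⟩, ?_⟩
      rintro (h | ⟨c', hc'⟩)
      · exact h.2
      · exact absurd hc'.1 hy
  · simp only [if_pos hy]
    obtain ⟨c, -, -, -, p, hp, -, e⟩ := hG _ hy
    rw [e]
    exact ⟨Hq_pos _, (H y hy).2 p hp⟩

end Vale.Agent.P345
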