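import Mathlib

/-!
Single-fold Diophantine predicates and functions: closure properties.
-/

namespace Vale.Agent.P345

open MvPolynomial

variable {α α' β γ : Type}

/-- Functions given by a polynomial with natural coefficients. -/
def IsP (f : (γ → ℕ) → ℕ) : Prop := ∃ P : MvPolynomial γ ℕ, ∀ x, f x = eval x P

lemma IsP.const (c : ℕ) : IsP (fun _ : γ → ℕ => c) := ⟨C c, by simp⟩
lemma IsP.var (i : γ) : IsP (fun x : γ → ℕ => x i) := ⟨X i, by simp⟩
lemma IsP.add {f g : (γ → ℕ) → ℕ} (hf : IsP f) (hg : IsP g) : IsP (fun x => f x + g x) := by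
  obtain ⟨P, hP⟩ := hf; obtain ⟨Q, hQ⟩ := hg
  exact ⟨P + Q, by simp [hP, hQ]⟩
lemma IsP.mul {f g : (γ → ℕ) → ℕ} (hf : IsP f) (hg : IsP g) : IsP (fun x => f x * g x) := by
  obtain ⟨P, hP⟩ := hf; obtain ⟨Q, hQ⟩ := hg
  exact ⟨P * Q, by simp [hP, hQ]⟩
lemma IsP.comap {f : (γ → ℕ) → ℕ} (hf : IsP f) (e : γ → β) : IsP (fun x : β → ℕ => f (x ∘ e)) := by
  obtain ⟨P, hP⟩ := hf
  exact ⟨rename e P, fun x => by beta_reduce; rw [eval_rename, hP]⟩

/-- Predicates given by one polynomial equation. -/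
def PE (r : (γ → ℕ) → Prop) : Prop := ∃ f g, IsP f ∧ IsP g ∧ ∀ x, r x ↔ f x = g x

lemma PE.congr {r s : (γ → ℕ) → Prop} (h : PE r) (e : ∀ x, s x ↔ r x) : PE s := by
  obtain ⟨f, g, hf, hg, H⟩ := h
  exact ⟨f, g, hf, hg, fun x => (e x).trans (H x)⟩

lemma PE.eq {f g : (γ → ℕ) → ℕ} (hf : IsP f) (hg : IsP g) : PE (fun x => f x = g x) :=
  ⟨f, g, hf, hg, fun _ => Iff.rfl⟩

lemma PE.and {r s : (γ → ℕ) → Prop} (hr : PE r) (hs : PE s) : PE (fun x => r x ∧ s x) := by
  obtain ⟨f, g, hf, hg, H⟩ := hr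
  obtain ⟨f', g', hf', hg', H'⟩ := hs
  refine ⟨fun x => f x * f x + g x * g x + (f' x * f' x + g' x * g' x),
    fun x => 2 * (f x * g x) + 2 * (f' x * g' x),
    ((hf.mul hf).add (hg.mul hg)).add ((hf'.mul hf').add (hg'.mul hg')),
    ((IsP.const 2).mul (hf.mul hg)).add ((IsP.const 2).mul (hf'.mul hg')), fun x => ?_⟩
  beta_reduce
  rw [H, H']
  constructor
  · rintro ⟨h1, h2⟩; rw [h1, h2]; ring
  · intro h
    zify at h ⊢
    constructor <;> nlinarith [sq_nonneg ((f x : ℤ) - g x), sq_nonneg ((f' x : ℤ) - g' x)]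

lemma PE.or {r s : (γ → ℕ) → Prop} (hr : PE r) (hs : PE s) : PE (fun x => r x ∨ s x) := by
  obtain ⟨f, g, hf, hg, H⟩ := hr
  obtain ⟨f', g', hf', hg', H'⟩ := hs
  refine ⟨fun x => f x * f' x + g x * g' x, fun x => f x * g' x + g x * f' x,
    (hf.mul hf').add (hg.mul hg'), (hf.mul hg').add (hg.mul hf'), fun x => ?_⟩
  beta_reduce
  rw [H, H']
  zify
  rw [← sub_eq_zero (a := (f x : ℤ)), ← sub_eq_zero (a := (f' x : ℤ)), ← mul_eq_zero]
  constructor <;> intro h <;> linarith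

lemma PE.comap {r : (γ → ℕ) → Prop} (hr : PE r) (e : γ → β) : PE (fun x : β → ℕ => r (x ∘ e)) := by
  obtain ⟨f, g, hf, hg, H⟩ := hr
  exact ⟨_, _, hf.comap e, hg.comap e, fun x => H _⟩

lemma PE.all {ι : Type} [Finite ι] {r : ι → (γ → ℕ) → Prop} (hr : ∀ i, PE (r i)) :
    PE (fun x => ∀ i, r i x) := by
  classical
  have := Fintype.ofFinite ι
  have key : ∀ s : Finset ι, PE (fun x => ∀ i ∈ s, r i x) := by
    intro s
    induction s using Finset.induction_on with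
    | empty => exact (PE.eq (IsP.const 0) (IsP.const 0)).congr (by simp)
    | insert i s _ ih => exact ((hr i).and ih).congr (by simp)
  exact (key Finset.univ).congr (by simp)

/-- Single-fold Diophantine predicates. -/
class SF (p : (α → ℕ) → Prop) : Prop where
  out : ∃ (β : Type) (_ : Finite β) (r : (α ⊕ β → ℕ) → Prop), PE r ∧
    (∀ a, p a ↔ ∃ w, r (Sum.elim a w)) ∧
    ∀ a w w', r (Sum.elim a w) → r (Sum.elim a w') → w = w'

/-- Functions with single-fold Diophantine graph. -/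
class SFn (f : (α → ℕ) → ℕ) : Prop where
  out : SF (fun v : Option α → ℕ => v none = f (fun i => v (some i)))

lemma SF.congr {p q : (α → ℕ) → Prop} (h : SF p) (e : ∀ a, q a ↔ p a) : SF q := by
  rw [show q = p from funext fun a => propext (e a)]; exact h

lemma SFn.congr {f g : (α → ℕ) → ℕ} (h : SFn f) (e : ∀ a, g a = f a) : SFn g := by
  rw [show g = f from funext e]; exact h

lemma SF.of_PE {p : (α → ℕ) → Prop} (h : PE p) : SF p :=
  ⟨Empty, inferInstance, fun x => p (x ∘ Sum.inl), h.comap _,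
    fun a => ⟨fun h => ⟨Empty.elim, h⟩, fun ⟨_, h⟩ => h⟩, fun _ _ _ _ _ => Subsingleton.elim _ _⟩

lemma SF.comap {p : (α → ℕ) → Prop} (h : SF p) (e : α → α') :
    SF (fun a : α' → ℕ => p (fun i => a (e i))) := by
  obtain ⟨β, _, r, hr, H, U⟩ := h
  have key : ∀ (a : α' → ℕ) (w : β → ℕ),
      Sum.elim a w ∘ Sum.map e id = Sum.elim (fun i => a (e i)) w := by
    intro a w; funext x; cases x <;> rfl
  refine ⟨β, inferInstance, fun x => r (x ∘ Sum.map e id), hr.comap _, fun a => ?_,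
    fun a w w' => ?_⟩
  · simp only [key]; exact H _
  · simp only [key]; exact U _ _ _

instance SF.and {p q : (α → ℕ) → Prop} [hp : SF p] [hq : SF q] : SF (fun a => p a ∧ q a) := by
  obtain ⟨β, _, r, hr, H, U⟩ := hp
  obtain ⟨β', _, r', hr', H', U'⟩ := hq
  have k1 : ∀ (a : α → ℕ) (w : β ⊕ β' → ℕ),
      Sum.elim a w ∘ Sum.map id Sum.inl = Sum.elim a (w ∘ Sum.inl) := by
    intro a w; funext x; cases x <;> rfl
  have k2 : ∀ (a : α → ℕ) (w : β ⊕ β' → ℕ),
      Sum.elim a w ∘ Sum.map id Sum.inr = Sum.elim a (w ∘ Sum.inr) := by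
    intro a w; funext x; cases x <;> rfl
  refine ⟨β ⊕ β', inferInstance,
    fun x => r (x ∘ Sum.map id Sum.inl) ∧ r' (x ∘ Sum.map id Sum.inr),
    (hr.comap _).and (hr'.comap _), fun a => ?_, fun a w w' => ?_⟩
  · simp only [k1, k2]
    rw [H, H']
    constructor
    · rintro ⟨⟨w, h⟩, ⟨w', h'⟩⟩; exact ⟨Sum.elim w w', h, h'⟩
    · rintro ⟨w, h, h'⟩; exact ⟨⟨_, h⟩, ⟨_, h'⟩⟩
  · simp only [k1, k2]
    rintro ⟨h1, h2⟩ ⟨h3, h4⟩
    have e1 := U _ _ _ h1 h3
    have e2 := U' _ _ _ h2 h4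
    funext x; cases x with
    | inl x => exact congrFun e1 x
    | inr x => exact congrFun e2 x

lemma SF.or {p q : (α → ℕ) → Prop} (hp : SF p) (hq : SF q) (hd : ∀ a, p a → q a → False) :
    SF (fun a => p a ∨ q a) := by
  obtain ⟨β, _, r, hr, H, U⟩ := hp
  obtain ⟨β', _, r', hr', H', U'⟩ := hq
  have k1 : ∀ (a : α → ℕ) (w : β ⊕ β' → ℕ),
      Sum.elim a w ∘ Sum.map id Sum.inl = Sum.elim a (w ∘ Sum.inl) := by
    intro a w; funext x; cases x <;> rfl
  have k2 : ∀ (a : α → ℕ) (w : β ⊕ β' → ℕ),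
      Sum.elim a w ∘ Sum.map id Sum.inr = Sum.elim a (w ∘ Sum.inr) := by
    intro a w; funext x; cases x <;> rfl
  refine ⟨β ⊕ β', inferInstance,
    fun x => (r (x ∘ Sum.map id Sum.inl) ∧ ∀ j : β', x (Sum.inr (Sum.inr j)) = 0) ∨
      (r' (x ∘ Sum.map id Sum.inr) ∧ ∀ j : β, x (Sum.inr (Sum.inl j)) = 0),
    ((hr.comap _).and (PE.all fun j => PE.eq (IsP.var _) (IsP.const 0))).or
      ((hr'.comap _).and (PE.all fun j => PE.eq (IsP.var _) (IsP.const 0))),
    fun a => ?_, fun a w w' => ?_⟩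
  · simp only [k1, k2]
    rw [H, H']
    constructor
    · rintro (⟨w, h⟩ | ⟨w, h⟩)
      · exact ⟨Sum.elim w 0, Or.inl ⟨h, fun _ => rfl⟩⟩
      · exact ⟨Sum.elim 0 w, Or.inr ⟨h, fun _ => rfl⟩⟩
    · rintro ⟨w, ⟨h, -⟩ | ⟨h, -⟩⟩
      · exact Or.inl ⟨_, h⟩
      · exact Or.inr ⟨_, h⟩
  · simp only [k1, k2, Sum.elim_inr]
    rintro (⟨h1, h2⟩ | ⟨h1, h2⟩) (⟨h3, h4⟩ | ⟨h3, h4⟩)
    · have e1 := U _ _ _ h1 h3
      funext x; cases x with
      | inl x => exact congrFun e1 x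
      | inr x => rw [h2, h4]
    · exact (hd a ((H a).2 ⟨_, h1⟩) ((H' a).2 ⟨_, h3⟩)).elim
    · exact (hd a ((H a).2 ⟨_, h3⟩) ((H' a).2 ⟨_, h1⟩)).elim
    · have e1 := U' _ _ _ h1 h3
      funext x; cases x with
      | inl x => rw [h2, h4]
      | inr x => exact congrFun e1 x

lemma SF.all {ι : Type} [Finite ι] {p : ι → (α → ℕ) → Prop} (hp : ∀ i, SF (p i)) :
    SF (fun a => ∀ i, p i a) := by
  classical
  have := Fintype.ofFinite ι
  have key : ∀ s : Finset ι, SF (fun a => ∀ i ∈ s, p i a) := by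
    intro s
    induction s using Finset.induction_on with
    | empty => exact (SF.of_PE (PE.eq (IsP.const 0) (IsP.const 0))).congr (by simp)
    | insert i s _ ih => exact (SF.and (hp := hp i) (hq := ih)).congr (by simp)
  exact (key Finset.univ).congr (by simp)

lemma SF.exu [Finite γ] {p : (α → ℕ) → (γ → ℕ) → Prop}
    (h : SF (fun v : α ⊕ γ → ℕ => p (fun i => v (Sum.inl i)) (fun j => v (Sum.inr j))))
    (hu : ∀ a c c', p a c → p a c' → c = c') : SF (fun a => ∃ c, p a c) := by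
  obtain ⟨β, _, r, hr, H, U⟩ := h
  have k1 : ∀ (a : α → ℕ) (w : γ ⊕ β → ℕ), Sum.elim a w ∘ Equiv.sumAssoc α γ β =
      Sum.elim (Sum.elim a (w ∘ Sum.inl)) (w ∘ Sum.inr) := by
    intro a w; funext x; rcases x with (x | x) | x <;> rfl
  refine ⟨γ ⊕ β, inferInstance, fun x => r (x ∘ Equiv.sumAssoc α γ β), hr.comap _,
    fun a => ?_, fun a w w' => ?_⟩
  · simp only [k1]
    constructor
    · rintro ⟨c, hc⟩
      obtain ⟨w, hw⟩ := (H (Sum.elim a c)).1 hc
      exact ⟨Sum.elim c w, hw⟩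
    · rintro ⟨w, hw⟩
      exact ⟨_, (H _).2 ⟨_, hw⟩⟩
  · simp only [k1]
    intro h1 h2
    have e1 : w ∘ Sum.inl = w' ∘ Sum.inl := hu a _ _ ((H _).2 ⟨_, h1⟩) ((H _).2 ⟨_, h2⟩)
    rw [e1] at h1
    have e2 := U _ _ _ h1 h2
    funext x; cases x with
    | inl x => exact congrFun e1 x
    | inr x => exact congrFun e2 x

lemma SF.ex1 {p : (α → ℕ) → ℕ → Prop}
    (h : SF (fun v : Option α → ℕ => p (fun i => v (some i)) (v none)))
    (hu : ∀ a x x', p a x → p a x' → x = x') : SF (fun a => ∃ x, p a x) := by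
  have h1 := h.comap (fun o : Option α => (o.elim (Sum.inr ()) Sum.inl : α ⊕ Unit))
  have h2 := SF.exu (γ := Unit) (p := fun a c => p a (c ())) h1
    (fun a c c' h1 h2 => funext fun _ => hu a _ _ h1 h2)
  exact h2.congr fun a => ⟨fun ⟨x, hx⟩ => ⟨fun _ => x, hx⟩, fun ⟨c, hc⟩ => ⟨_, hc⟩⟩

lemma SFn.comap {f : (α → ℕ) → ℕ} (h : SFn f) (e : α → α') :
    SFn (fun a : α' → ℕ => f (fun i => a (e i))) :=
  ⟨h.out.comap (Option.map e)⟩

lemma SF.subst [Finite α] {p : (α → ℕ) → Prop} (h : SF p) {F : α → (α' → ℕ) → ℕ}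
    (hF : ∀ i, SFn (F i)) : SF (fun a => p (fun i => F i a)) := by
  have h1 : SF (fun v : α' ⊕ α → ℕ => (∀ i, v (Sum.inr i) = F i (fun j => v (Sum.inl j))) ∧
      p (fun i => v (Sum.inr i))) :=
    SF.and (hp := SF.all fun i => (hF i).out.comap
      (fun o : Option α' => (o.elim (Sum.inr i) Sum.inl : α' ⊕ α))) (hq := h.comap Sum.inr)
  have h2 := SF.exu (p := fun a c => (∀ i, c i = F i a) ∧ p c) h1
    (fun a c c' h1 h2 => funext fun i => (h1.1 i).trans (h2.1 i).symm)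
  refine h2.congr fun a => ⟨fun h => ⟨_, fun _ => rfl, h⟩, fun ⟨c, h1, h2⟩ => ?_⟩
  rwa [show c = fun i => F i a from funext h1] at h2

lemma SFn.of_IsP {f : (α → ℕ) → ℕ} (h : IsP f) : SFn f :=
  ⟨SF.of_PE (PE.eq (IsP.var none) (h.comap some))⟩

instance SFn.const (c : ℕ) : SFn (fun _ : α → ℕ => c) := SFn.of_IsP (IsP.const c)

instance SFn.var (i : α) : SFn (fun a : α → ℕ => a i) := SFn.of_IsP (IsP.var i)

lemma SFn.subst [Finite α] {f : (α → ℕ) → ℕ} (h : SFn f) {F : α → (α' → ℕ) → ℕ}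
    (hF : ∀ i, SFn (F i)) : SFn (fun a => f (fun i => F i a)) :=
  ⟨SF.subst h.out (F := fun o (v : Option α' → ℕ) => o.elim (v none)
    (fun i => F i (fun j => v (some j)))) (by
      rintro (_ | i)
      · exact SFn.var none
      · exact (hF i).comap some)⟩

lemma SF.rel1 {R : ℕ → Prop} (h : SF (fun v : Fin 1 → ℕ => R (v 0)))
    {f : (α → ℕ) → ℕ} (hf : SFn f) : SF (fun a => R (f a)) :=
  h.subst (F := ![f]) (by intro i; fin_cases i; exact hf)

lemma SF.rel2 {R : ℕ → ℕ → Prop} (h : SF (fun v : Fin 2 → ℕ => R (v 0) (v 1)))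
    {f g : (α → ℕ) → ℕ} (hf : SFn f) (hg : SFn g) : SF (fun a => R (f a) (g a)) :=
  h.subst (F := ![f, g]) (by intro i; fin_cases i <;> assumption)

lemma SF.rel3 {R : ℕ → ℕ → ℕ → Prop} (h : SF (fun v : Fin 3 → ℕ => R (v 0) (v 1) (v 2)))
    {f g k : (α → ℕ) → ℕ} (hf : SFn f) (hg : SFn g) (hk : SFn k) :
    SF (fun a => R (f a) (g a) (k a)) :=
  h.subst (F := ![f, g, k]) (by intro i; fin_cases i <;> assumption)

lemma SFn.fn1 {F : ℕ → ℕ} (h : SF (fun v : Fin 2 → ℕ => v 0 = F (v 1)))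
    {f : (α → ℕ) → ℕ} (hf : SFn f) : SFn (fun a => F (f a)) :=
  ⟨SF.rel2 (R := fun x y => x = F y) h (SFn.var none) (hf.comap some)⟩

lemma SFn.fn2 {F : ℕ → ℕ → ℕ} (h : SF (fun v : Fin 3 → ℕ => v 0 = F (v 1) (v 2)))
    {f g : (α → ℕ) → ℕ} (hf : SFn f) (hg : SFn g) : SFn (fun a => F (f a) (g a)) :=
  ⟨SF.rel3 (R := fun x y z => x = F y z) h (SFn.var none) (hf.comap some) (hg.comap some)⟩

section inst
variable {f g : (α → ℕ) → ℕ}

instance SF.eq [hf : SFn f] [hg : SFn g] : SF (fun a => f a = g a) :=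
  SF.rel2 (R := Eq) (SF.of_PE (PE.eq (IsP.var 0) (IsP.var 1))) hf hg

instance SFn.add [hf : SFn f] [hg : SFn g] : SFn (fun a => f a + g a) :=
  SFn.fn2 (F := fun x y => x + y)
    (SF.of_PE (PE.eq (IsP.var 0) ((IsP.var 1).add (IsP.var 2)))) hf hg

instance SFn.mul [hf : SFn f] [hg : SFn g] : SFn (fun a => f a * g a) :=
  SFn.fn2 (F := fun x y => x * y)
    (SF.of_PE (PE.eq (IsP.var 0) ((IsP.var 1).mul (IsP.var 2)))) hf hg

instance SF.le [hf : SFn f] [hg : SFn g] : SF (fun a => f a ≤ g a) := by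
  refine SF.rel2 (R := fun x y => x ≤ y) ?_ hf hg
  refine (SF.ex1 (p := fun (a : Fin 2 → ℕ) x => a 0 + x = a 1) inferInstance
    (fun a x x' h1 h2 => by omega)).congr fun a => ?_
  exact ⟨fun h => ⟨a 1 - a 0, by omega⟩, fun ⟨x, h⟩ => by omega⟩

instance SF.lt [hf : SFn f] [hg : SFn g] : SF (fun a => f a < g a) :=
  (inferInstance : SF (fun a => f a + 1 ≤ g a)).congr fun _ => Iff.rfl

instance SF.ne [hf : SFn f] [hg : SFn g] : SF (fun a => f a ≠ g a) :=
  (SF.or (inferInstance : SF (fun a => f a < g a)) (inferInstance : SF (fun a => g a < f a))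
    (fun a h1 h2 => by omega)).congr fun a => by omega

instance SFn.sub [hf : SFn f] [hg : SFn g] : SFn (fun a => f a - g a) := by
  refine SFn.fn2 (F := fun x y => x - y) ?_ hf hg
  exact (SF.or (inferInstance : SF (fun v : Fin 3 → ℕ => v 2 ≤ v 1 ∧ v 0 + v 2 = v 1))
    (inferInstance : SF (fun v : Fin 3 → ℕ => v 1 < v 2 ∧ v 0 = 0))
    (fun a h1 h2 => by omega)).congr fun a => by omega

instance SFn.max [hf : SFn f] [hg : SFn g] : SFn (fun a => max (f a) (g a)) :=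
  (inferInstance : SFn (fun a => f a + (g a - f a))).congr fun a => by omega

instance SFn.div [hf : SFn f] [hg : SFn g] : SFn (fun a => f a / g a) := by
  refine SFn.fn2 (F := fun x y => x / y) ?_ hf hg
  refine (SF.or (inferInstance : SF (fun v : Fin 3 → ℕ => v 2 = 0 ∧ v 0 = 0))
    (inferInstance : SF (fun v : Fin 3 → ℕ => v 0 * v 2 ≤ v 1 ∧ v 1 < (v 0 + 1) * v 2))
    (fun a h1 h2 => by rw [h1.1] at h2; omega)).congr fun a => ?_
  rcases Nat.eq_zero_or_pos (a 2) with h | h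
  · simp [h]
  · rw [eq_comm, Nat.div_eq_iff h]
    constructor
    · rintro ⟨h1, h2⟩; right; constructor
      · exact h1
      · rw [add_mul]; omega
    · rintro (⟨h1, -⟩ | ⟨h1, h2⟩)
      · omega
      · rw [add_mul] at h2; constructor
        · exact h1
        · omega

instance SFn.mod [hf : SFn f] [hg : SFn g] : SFn (fun a => f a % g a) :=
  (inferInstance : SFn (fun a => f a - g a * (f a / g a))).congr fun a => Nat.mod_def _ _

lemma SFn.pow_const [hf : SFn f] (k : ℕ) : SFn (fun a => f a ^ k) := by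
  induction k with
  | zero => exact (SFn.const 1).congr fun a => pow_zero _
  | succ k ih => exact (SFn.mul (hf := ih) (hg := hf)).congr fun a => pow_succ _ _

lemma SFn.sum {ι : Type} (s : Finset ι) {F : ι → (α → ℕ) → ℕ} (h : ∀ i ∈ s, SFn (F i)) :
    SFn (fun a => ∑ i ∈ s, F i a) := by
  classical
  induction s using Finset.induction_on with
  | empty => exact (SFn.const 0).congr (by simp)
  | insert i s hi ih =>
    exact (SFn.add (hf := h i (by simp)) (hg := ih fun j hj => h j (by simp [hj]))).congr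
      fun a => Finset.sum_insert hi

lemma SFn.prod {ι : Type} (s : Finset ι) {F : ι → (α → ℕ) → ℕ} (h : ∀ i ∈ s, SFn (F i)) :
    SFn (fun a => ∏ i ∈ s, F i a) := by
  classical
  induction s using Finset.induction_on with
  | empty => exact (SFn.const 1).congr (by simp)
  | insert i s hi ih =>
    exact (SFn.mul (hf := h i (by simp)) (hg := ih fun j hj => h j (by simp [hj]))).congr
      fun a => Finset.prod_insert hi

end inst

end Vale.Agent.P345
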